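import Vale.Agent.P032.H448.PartnerW
import Vale.Agent.P032.H158.RelP

/-!
# P032: windows whose ends satisfy the partner rule

The window of a colour is the hull of `DD448 U T z i`: the directions in which `i` occurs in the
palettes, together with the closure of the solid directions of `U i`.

`exists_hull448` : the hull exists if `i` is one-sided; `hull_side448` : it is strictly on every side
of the colour; `hull_frontier448` : if the ends of the hull `Hull429` are limits of solid directions,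
then the ends of the new hull are in the frontier of the solid directions (the partner rule).
`win448` : all windows in units of 60 degrees with `PE`; `winData448` : the structure `WinData`.
-/

open Set Filter Topology Metric

noncomputable section

namespace Vale.Agent.P032.H448

open Vale.Agent.P032.Six Vale.Agent.P032.Sweep Vale.Agent.P032.S5.H767 Vale.Agent.P032.S5.H122
  Vale.Agent.P032.H429 Vale.Agent.P032.H187 Vale.Agent.P032.H158

/-! ### Hulls of periodic closed sets -/

theorem hull_of448 {D : Set ℝ} (hc : IsClosed D)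
    (hp : ∀ (s : ℝ) (n : ℤ), s + 2 * Real.pi * n ∈ D ↔ s ∈ D) (hne : D.Nonempty) {θ : ℝ}
    (hcos : ∀ s ∈ D, 0 < Real.cos (s - θ)) :
    ∃ l r, l ≤ r ∧ r < l + Real.pi ∧ l ∈ D ∧ r ∈ D ∧
      ∀ s ∈ D, ∃ n : ℤ, l + 2 * Real.pi * n ≤ s ∧ s ≤ r + 2 * Real.pi * n := by
  set K := D ∩ Icc (θ - Real.pi / 2) (θ + Real.pi / 2) with hK
  have hKc : IsCompact K := isCompact_Icc.inter_left hc
  have hrep : ∀ s ∈ D, ∃ n : ℤ, s + 2 * Real.pi * n ∈ K := by
    intro s hs
    obtain ⟨n, h1, h2⟩ := exists_rep429 (θ - Real.pi / 2) s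
    have h3 : s + 2 * Real.pi * n ∈ D := (hp s n).2 hs
    have h4 := cos_pos_iff429 (θ := θ) h1 (by linarith) (hcos _ h3)
    exact ⟨n, h3, h4.1.le, h4.2.le⟩
  have hKne : K.Nonempty := by
    obtain ⟨s, hs⟩ := hne
    obtain ⟨n, hn⟩ := hrep s hs
    exact ⟨_, hn⟩
  obtain ⟨l, hlK, hl⟩ := hKc.exists_isLeast hKne
  obtain ⟨r, hrK, hr⟩ := hKc.exists_isGreatest hKne
  have hl' := cos_pos_iff429 (θ := θ) hlK.2.1 (by linarith [hlK.2.2, Real.pi_pos])
    (hcos _ hlK.1)
  have hr' := cos_pos_iff429 (θ := θ) hrK.2.1 (by linarith [hrK.2.2, Real.pi_pos])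
    (hcos _ hrK.1)
  refine ⟨l, r, hl hrK, by linarith [hl'.1, hr'.2], hlK.1, hrK.1, fun s hs => ?_⟩
  obtain ⟨n, hn⟩ := hrep s hs
  refine ⟨-n, ?_, ?_⟩
  · have := hl hn
    push_cast
    linarith
  · have := hr hn
    push_cast
    linarith

theorem side_of448 {D : Set ℝ} (hp : ∀ (s : ℝ) (n : ℤ), s + 2 * Real.pi * n ∈ D ↔ s ∈ D) {l r : ℝ}
    (hlr : l ≤ r) (hlt : r < l + Real.pi) (hl : l ∈ D) (hr : r ∈ D) {θ : ℝ}
    (hcos : ∀ s ∈ D, 0 < Real.cos (s - θ)) :
    ∃ n : ℤ, θ - Real.pi / 2 < l + 2 * Real.pi * n ∧ r + 2 * Real.pi * n < θ + Real.pi / 2 := by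
  obtain ⟨n, h1, h2⟩ := exists_rep429 (θ - Real.pi / 2) l
  have h3 := cos_pos_iff429 (θ := θ) h1 (by linarith) (hcos _ ((hp l n).2 hl))
  have h4 := cos_pos_iff429 (θ := θ) (s := r + 2 * Real.pi * n) (by linarith)
    (by linarith) (hcos _ ((hp r n).2 hr))
  exact ⟨n, h3.1, h4.2⟩

section

variable {k : ℕ} {U : Fin k → Set ℂ} {T : ℂ → Set (Fin k)} {z : ℂ} {i : Fin k}

/-- the solid directions of a colour (radians) -/
def SD448 (U : Fin k → Set ℂ) (z : ℂ) (i : Fin k) : Set ℝ := {s | Ray (U i) z (cis s)}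

/-- the directions of the palettes and the limits of the solid directions -/
def DD448 (U : Fin k → Set ℂ) (T : ℂ → Set (Fin k)) (z : ℂ) (i : Fin k) : Set ℝ :=
  Dir429 T z i ∪ closure (SD448 U z i)

theorem sd_int448 (s : ℝ) (n : ℤ) : s + 2 * Real.pi * n ∈ SD448 U z i ↔ s ∈ SD448 U z i := by
  show Ray (U i) z (cis (s + 2 * Real.pi * n)) ↔ Ray (U i) z (cis s)
  rw [cis_int429]

theorem clo_int448 (s : ℝ) (n : ℤ) :
    s + 2 * Real.pi * n ∈ closure (SD448 U z i) ↔ s ∈ closure (SD448 U z i) := by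
  have h1 := (Homeomorph.addRight (2 * Real.pi * (n : ℝ))).preimage_closure (SD448 U z i)
  have h2 : (Homeomorph.addRight (2 * Real.pi * (n : ℝ))) ⁻¹' (SD448 U z i) = SD448 U z i := by
    ext x
    exact sd_int448 x n
  rw [h2] at h1
  have h3 : s ∈ (Homeomorph.addRight (2 * Real.pi * (n : ℝ))) ⁻¹' closure (SD448 U z i) ↔
      s ∈ closure (SD448 U z i) := by rw [h1]
  exact h3

theorem dd_int448 (s : ℝ) (n : ℤ) : s + 2 * Real.pi * n ∈ DD448 U T z i ↔ s ∈ DD448 U T z i :=
  or_congr (dir_int429 n) (clo_int448 s n)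

theorem dd_closed448 : IsClosed (DD448 U T z i) := (dir_closed429 T z i).union isClosed_closure

/-- the directions of a one-sided colour -/
theorem dd_cos448 (h : Irr U T) {θ : ℝ} (hs : Side429 U z (cis θ) i) :
    ∀ s ∈ DD448 U T z i, 0 < Real.cos (s - θ) := by
  obtain ⟨ε, hε, hd⟩ := h.dir_of_side hs
  obtain ⟨ε', hε', hev⟩ := hs
  rintro s (h1 | h1)
  · have := hd (cis s) (norm_cis s) h1
    rw [ip_cis429] at this
    linarith
  · have h2 : SD448 U z i ⊆ {s | ε' ≤ Real.cos (s - θ)} := by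
      intro s hs
      have h3 : ∀ᶠ r : ℝ in 𝓝[>] 0, z + r * cis s ∈ U i := hs
      have h4 : Tendsto (fun r : ℝ => z + (r : ℂ) * cis s) (𝓝[>] 0) (𝓝 z) := by
        have h5 : Tendsto (fun r : ℝ => z + (r : ℂ) * cis s) (𝓝 0) (𝓝 (z + ((0 : ℝ) : ℂ) * cis s)) :=
          (by fun_prop : Continuous fun r : ℝ => z + (r : ℂ) * cis s).tendsto 0
        have h6 : z + ((0 : ℝ) : ℂ) * cis s = z := by simp
        rw [h6] at h5
        exact h5.mono_left nhdsWithin_le_nhds
      obtain ⟨r, ⟨hr1, hr2⟩, hr0⟩ :=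
        ((h3.and (h4.eventually hev)).and self_mem_nhdsWithin).exists
      have hr0 : 0 < r := hr0
      have h7 := hr2 (subset_closure hr1)
      rw [add_sub_cancel_left, norm_mul, norm_cis, mul_one, Complex.norm_real, Real.norm_eq_abs,
        abs_of_pos hr0] at h7
      have h8 : ip ((r : ℂ) * cis s) (cis θ) = r * Real.cos (s - θ) := by
        rw [← ip_cis429]
        unfold ip
        simp only [Complex.re_ofReal_mul, Complex.im_ofReal_mul]
        ring
      rw [h8] at h7
      show ε' ≤ Real.cos (s - θ)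
      by_contra hcon
      push Not at hcon
      nlinarith
    have h9 : IsClosed {s : ℝ | ε' ≤ Real.cos (s - θ)} :=
      isClosed_le continuous_const (by fun_prop)
    have h10 : ε' ≤ Real.cos (s - θ) := closure_minimal h2 h9 h1
    linarith

/-- the hull of the directions -/
structure Hull448 (U : Fin k → Set ℂ) (T : ℂ → Set (Fin k)) (z : ℂ) (i : Fin k) (l r : ℝ) :
    Prop where
  le : l ≤ r
  lt : r < l + Real.pi
  hl : l ∈ DD448 U T z i
  hr : r ∈ DD448 U T z i
  mem : ∀ s ∈ DD448 U T z i, ∃ n : ℤ, l + 2 * Real.pi * n ≤ s ∧ s ≤ r + 2 * Real.pi * n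

theorem exists_hull448 (h : Irr U T) {θ : ℝ} (hi : i ∈ T z) (hz : T z ≠ {i})
    (hs : Side429 U z (cis θ) i) : ∃ l r, Hull448 U T z i l r := by
  obtain ⟨l, r, h1, h2, h3, h4, h5⟩ := hull_of448 dd_closed448 dd_int448
    (by obtain ⟨s, hs⟩ := h.dir_nonempty hi hz; exact ⟨s, Or.inl hs⟩) (dd_cos448 h hs)
  exact ⟨l, r, h1, h2, h3, h4, h5⟩

/-- the window is strictly on every side of the colour -/
theorem hull_side448 (h : Irr U T) {l r θ : ℝ} (H : Hull448 U T z i l r)
    (hs : Side429 U z (cis θ) i) : ∃ n : ℤ, θ - Real.pi / 2 < l + 2 * Real.pi * n ∧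
      r + 2 * Real.pi * n < θ + Real.pi / 2 :=
  side_of448 dd_int448 H.le H.lt H.hl H.hr (dd_cos448 h hs)

/-- the ends of the window are limits of directions which are not solid -/
theorem hull_end448 {l r : ℝ} (H : Hull448 U T z i l r) :
    l ∈ closure (SD448 U z i)ᶜ ∧ r ∈ closure (SD448 U z i)ᶜ := by
  have hp := Real.pi_pos
  constructor
  · rw [mem_closure_iff_frequently]
    have h1 : ∀ᶠ s in 𝓝[<] l, s ∈ (SD448 U z i)ᶜ := by
      have h2 : Ioo (l - Real.pi) l ∈ 𝓝[<] l := Ioo_mem_nhdsLT (by linarith)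
      filter_upwards [h2] with s hs hs'
      obtain ⟨n, hn1, hn2⟩ := H.mem s (Or.inr (subset_closure hs'))
      have hlt := H.lt
      have h3 : n < 0 := by
        by_contra hcon
        push Not at hcon
        have : (0 : ℝ) ≤ n := by exact_mod_cast hcon
        nlinarith [hs.2]
      have h4 : (n : ℝ) ≤ -1 := by exact_mod_cast (by omega : n ≤ -1)
      nlinarith [hs.1]
    exact (h1.frequently).filter_mono nhdsWithin_le_nhds
  · rw [mem_closure_iff_frequently]
    have h1 : ∀ᶠ s in 𝓝[>] r, s ∈ (SD448 U z i)ᶜ := by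
      have h2 : Ioo r (r + Real.pi) ∈ 𝓝[>] r := Ioo_mem_nhdsGT (by linarith)
      filter_upwards [h2] with s hs hs'
      obtain ⟨n, hn1, hn2⟩ := H.mem s (Or.inr (subset_closure hs'))
      have hlt := H.lt
      have h3 : 0 < n := by
        by_contra hcon
        push Not at hcon
        have : (n : ℝ) ≤ 0 := by exact_mod_cast hcon
        nlinarith [hs.1]
      have h4 : (1 : ℝ) ≤ n := by exact_mod_cast (by omega : 1 ≤ n)
      nlinarith [hs.2]
    exact (h1.frequently).filter_mono nhdsWithin_le_nhds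

/-- **the ends of the window** are in the frontier of the solid directions -/
theorem hull_frontier448 {l r l0 r0 : ℝ} (H : Hull448 U T z i l r) (H0 : Hull429 T z i l0 r0)
    (hl0 : l0 ∈ closure (SD448 U z i)) (hr0 : r0 ∈ closure (SD448 U z i)) :
    l ∈ frontier (SD448 U z i) ∧ r ∈ frontier (SD448 U z i) := by
  have hp := Real.pi_pos
  obtain ⟨e1, e2⟩ := hull_end448 H
  rw [frontier_eq_closure_inter_closure]
  have hlt := H.lt
  have hle := H.le
  have hlt0 := H0.lt
  have hle0 := H0.le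
  refine ⟨⟨?_, e1⟩, ⟨?_, e2⟩⟩
  · rcases H.hl with h1 | h1
    · obtain ⟨n, hn1, hn2⟩ := H0.mem l h1
      have h2 : l0 + 2 * Real.pi * n ∈ closure (SD448 U z i) := (clo_int448 l0 n).2 hl0
      obtain ⟨m, hm1, hm2⟩ := H.mem _ (Or.inr h2)
      have h3 : m = 0 := by
        have h4 : m < 1 := by
          by_contra hcon
          push Not at hcon
          have : (1 : ℝ) ≤ m := by exact_mod_cast hcon
          nlinarith
        have h5 : -1 < m := by
          by_contra hcon
          push Not at hcon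
          have : (m : ℝ) ≤ -1 := by exact_mod_cast hcon
          nlinarith
        omega
      rw [h3, Int.cast_zero, mul_zero, add_zero] at hm1
      have h6 : l = l0 + 2 * Real.pi * n := le_antisymm hm1 hn1
      rw [h6]; exact h2
    · exact h1
  · rcases H.hr with h1 | h1
    · obtain ⟨n, hn1, hn2⟩ := H0.mem r h1
      have h2 : r0 + 2 * Real.pi * n ∈ closure (SD448 U z i) := (clo_int448 r0 n).2 hr0
      obtain ⟨m, hm1, hm2⟩ := H.mem _ (Or.inr h2)
      have h3 : m = 0 := by
        have h4 : m < 1 := by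
          by_contra hcon
          push Not at hcon
          have : (1 : ℝ) ≤ m := by exact_mod_cast hcon
          nlinarith
        have h5 : -1 < m := by
          by_contra hcon
          push Not at hcon
          have : (m : ℝ) ≤ -1 := by exact_mod_cast hcon
          nlinarith
        omega
      rw [h3, Int.cast_zero, mul_zero, add_zero] at hm2
      have h6 : r = r0 + 2 * Real.pi * n := le_antisymm hn2 hm2
      rw [h6]; exact h2
    · exact h1

end

/-! ### Units of 60 degrees -/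

section

variable {U : Fin 6 → Set ℂ} {T : ℂ → Set (Fin 6)} {z : ℂ}

theorem frontier_dr448 {i : Fin 6} {x : ℝ} :
    x ∈ frontier (Dr U z i) ↔ x * (Real.pi / 3) ∈ frontier (SD448 U z i) := by
  have hne : Real.pi / 3 ≠ 0 := by positivity
  have h1 := (Homeomorph.mulRight₀ (Real.pi / 3) hne).preimage_frontier (SD448 U z i)
  have h2 : (Homeomorph.mulRight₀ (Real.pi / 3) hne) ⁻¹' (SD448 U z i) = Dr U z i := rfl
  rw [h2] at h1
  rw [← h1]
  exact Iff.rfl

/-- the windows of the point `z` in units of 60 degrees -/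
def Wins448 (U : Fin 6 → Set ℂ) (T : ℂ → Set (Fin 6)) (z : ℂ) (L R : Fin 6 → ℝ) : Prop :=
  ∀ i, Hull448 U T z i (L i * (Real.pi / 3)) (R i * (Real.pi / 3))

theorem exists_wins448 (h : Irr U T) (hz : ∀ i, i ∈ T z)
    (hs : ∀ i, ∃ θ, Side429 U z (cis θ) i) : ∃ L R : Fin 6 → ℝ, Wins448 U T z L R := by
  have h1 : ∀ i, ∃ p : ℝ × ℝ, Hull448 U T z i (p.1 * (Real.pi / 3)) (p.2 * (Real.pi / 3)) := by
    intro i
    obtain ⟨θ, hθ⟩ := hs i
    obtain ⟨l, r, hlr⟩ := exists_hull448 h (hz i) (by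
      intro hcon
      have h0 := hz 0
      have h1 := hz 1
      rw [hcon, mem_singleton_iff] at h0 h1
      exact absurd (h0.trans h1.symm) (by decide)) hθ
    refine ⟨(l * 3 / Real.pi, r * 3 / Real.pi), ?_⟩
    have e1 : l * 3 / Real.pi * (Real.pi / 3) = l := by field_simp
    have e2 : r * 3 / Real.pi * (Real.pi / 3) = r := by field_simp
    show Hull448 U T z i (l * 3 / Real.pi * (Real.pi / 3)) (r * 3 / Real.pi * (Real.pi / 3))
    rw [e1, e2]
    exact hlr
  choose p hp using h1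
  exact ⟨fun i => (p i).1, fun i => (p i).2, hp⟩

/-- **the partner rule at both ends of a window** -/
theorem Wins448.ends (h : Irr U T) {L R : Fin 6 → ℝ} (W : Wins448 U T z L R) {i : Fin 6}
    {l0 r0 : ℝ} (H0 : Hull429 T z i l0 r0) (hl0 : l0 ∈ closure (SD448 U z i))
    (hr0 : r0 ∈ closure (SD448 U z i)) :
    L i ∈ closure (Dr U z i) ∧ R i ∈ closure (Dr U z i) ∧ PE U z i (L i) ∧ PE U z i (R i) := by
  obtain ⟨h1, h2⟩ := hull_frontier448 (W i) H0 hl0 hr0
  rw [← frontier_dr448] at h1 h2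
  exact ⟨frontier_subset_closure h1, frontier_subset_closure h2, frontier448 h h1,
    frontier448 h h2⟩

theorem Wins448.front (h : Irr U T) {L R : Fin 6 → ℝ} (W : Wins448 U T z L R) {s : ℝ} {x : Fin 6}
    (h3 : Side429 U z (cis (s * (Real.pi / 3))) x) :
    ∃ n : ℤ, s - 3 / 2 < L x + 6 * n ∧ R x + 6 * n < s + 3 / 2 := by
  have hp : 0 < Real.pi / 3 := by positivity
  obtain ⟨n, h5, h6⟩ := hull_side448 h (W x) h3
  refine ⟨n, ?_, ?_⟩
  · have e1 : s * (Real.pi / 3) - Real.pi / 2 = (s - 3 / 2) * (Real.pi / 3) := by ring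
    have e2 : L x * (Real.pi / 3) + 2 * Real.pi * n = (L x + 6 * n) * (Real.pi / 3) := by ring
    rw [e1, e2] at h5
    exact lt_of_mul_lt_mul_right h5 hp.le
  · have e1 : s * (Real.pi / 3) + Real.pi / 2 = (s + 3 / 2) * (Real.pi / 3) := by ring
    have e2 : R x * (Real.pi / 3) + 2 * Real.pi * n = (R x + 6 * n) * (Real.pi / 3) := by ring
    rw [e1, e2] at h6
    exact lt_of_mul_lt_mul_right h6 hp.le

theorem Wins448.back (h : Irr U T) {L R : Fin 6 → ℝ} (W : Wins448 U T z L R) {s : ℝ} {x : Fin 6}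
    (h4 : Side429 U z (-cis (s * (Real.pi / 3))) x) :
    ∃ n : ℤ, s + 3 / 2 < L x + 6 * n ∧ R x + 6 * n < s + 9 / 2 := by
  have hp : 0 < Real.pi / 3 := by positivity
  have e0 : -cis (s * (Real.pi / 3)) = cis (s * (Real.pi / 3) + Real.pi) := by
    rw [cis_add_pi326]
  rw [e0] at h4
  obtain ⟨n, h5, h6⟩ := hull_side448 h (W x) h4
  refine ⟨n, ?_, ?_⟩
  · have e1 : s * (Real.pi / 3) + Real.pi - Real.pi / 2 = (s + 3 / 2) * (Real.pi / 3) := by
      ring
    have e2 : L x * (Real.pi / 3) + 2 * Real.pi * n = (L x + 6 * n) * (Real.pi / 3) := by ring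
    rw [e1, e2] at h5
    exact lt_of_mul_lt_mul_right h5 hp.le
  · have e1 : s * (Real.pi / 3) + Real.pi + Real.pi / 2 = (s + 9 / 2) * (Real.pi / 3) := by
      ring
    have e2 : R x * (Real.pi / 3) + 2 * Real.pi * n = (R x + 6 * n) * (Real.pi / 3) := by ring
    rw [e1, e2] at h6
    exact lt_of_mul_lt_mul_right h6 hp.le

/-- **the windows are a `WinData`**, general palettes -/
theorem Wins448.winR (h : Irr U T) {L R : Fin 6 → ℝ} (W : Wins448 U T z L R)
    (hside : ∀ s ∈ Lc T z, ∀ x ∈ T (pt z s), Side429 U z (cis (s * (Real.pi / 3))) x ∨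
      Side429 U z (-cis (s * (Real.pi / 3))) x)
    (hfront : ∀ s ∈ Lc T z, ∃ x ∈ T (pt z s), Side429 U z (cis (s * (Real.pi / 3))) x)
    (hback : ∀ s ∈ Lc T z, ∃ x ∈ T (pt z s), Side429 U z (-cis (s * (Real.pi / 3))) x) :
    WinData T z L R where
  le i := by
    have h1 := (W i).le
    have hp : 0 < Real.pi / 3 := by positivity
    exact le_of_mul_le_mul_right h1 hp
  lt i := by
    have h1 := (W i).lt
    have hp : 0 < Real.pi / 3 := by positivity
    have e : L i * (Real.pi / 3) + Real.pi = (L i + 3) * (Real.pi / 3) := by ring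
    rw [e] at h1
    exact lt_of_mul_lt_mul_right h1 hp.le
  cover s := by
    have hp : 0 < Real.pi / 3 := by positivity
    obtain ⟨i, -, hi⟩ := h.dir_cover z (s * (Real.pi / 3))
    obtain ⟨n, h1, h2⟩ := (W i).mem _ (Or.inl hi)
    refine ⟨i, n, ?_, ?_⟩
    · have e : L i * (Real.pi / 3) + 2 * Real.pi * n = (L i + 6 * n) * (Real.pi / 3) := by ring
      rw [e] at h1
      exact le_of_mul_le_mul_right h1 hp
    · have e : R i * (Real.pi / 3) + 2 * Real.pi * n = (R i + 6 * n) * (Real.pi / 3) := by ring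
      rw [e] at h2
      exact le_of_mul_le_mul_right h2 hp
  side s hs x hx := (hside s hs x hx).imp (W.front h) (W.back h)
  front s hs := by
    obtain ⟨x, hx, h1⟩ := hfront s hs
    exact ⟨x, hx, W.front h h1⟩
  back s hs := by
    obtain ⟨x, hx, h1⟩ := hback s hs
    exact ⟨x, hx, W.back h h1⟩

/-- **the windows are a `WinData`**, palettes of two colours -/
theorem Wins448.winData (h : Irr U T) {L R : Fin 6 → ℝ} (W : Wins448 U T z L R)
    (hlet : ∀ s ∈ Lc T z, ∃ a b, T (pt z s) = {a, b} ∧ a ≠ b ∧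
      Ori429 U z (s * (Real.pi / 3)) a b) : WinData T z L R := by
  refine W.winR h (fun s hs x hx => ?_) (fun s hs => ?_) (fun s hs => ?_)
  · obtain ⟨a, b, h1, -, h3, h4⟩ := hlet s hs
    rw [h1] at hx
    rcases hx with rfl | hx
    · exact Or.inl h3
    · rw [mem_singleton_iff] at hx
      rw [hx]
      exact Or.inr h4
  · obtain ⟨a, b, h1, -, h3, -⟩ := hlet s hs
    exact ⟨a, by rw [h1]; simp, h3⟩
  · obtain ⟨a, b, h1, -, -, h4⟩ := hlet s hs
    exact ⟨b, by rw [h1]; simp, h4⟩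

end

end Vale.Agent.P032.H448
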