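import Vale.Agent.P032.H158.Cov
import Vale.Agent.P032.H266.FamZ
import Vale.Agent.P032.H453.Lab
import Vale.Agent.P032.H728.Hyb
import Vale.Agent.P032.H728.Rank

/-!
# P032: the rules at a time and the end theorems for windows with honest ends

The statements of `H158/Rel`, `H158/Cov`, `H728/{Cnt, Mix, Hyb, Rank}` and `H453/Lab` with the
hypothesis `hD : ∀ i, Sd i → L i ∈ HD U z i ∧ R i ∈ HD U z i` (both ends of a window are honest
directions) in place of the closure of the solid directions.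
-/

open Set Filter Topology Metric

noncomputable section

namespace Vale.Agent.P032.H448

open Vale.Agent.P032.Six Vale.Agent.P032.Sweep Vale.Agent.P032.S5.H767 Vale.Agent.P032.S5.H122
  Vale.Agent.P032.H429
open Vale.Agent.P032.H266 (HD HD_of_Dr)

section

open Vale.Agent.P032.H158

variable {U : Fin 6 → Set ℂ} {T : ℂ → Set (Fin 6)} {z : ℂ} {L R : Fin 6 → ℝ}

/-- solid ends are honest -/
theorem hd_of_dr (h : Irr U T) {Sd : Fin 6 → Prop}
    (hD : ∀ i, Sd i → L i ∈ closure (Dr U z i) ∧ R i ∈ closure (Dr U z i)) :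
    ∀ i, Sd i → L i ∈ HD U z i ∧ R i ∈ HD U z i := fun i hi =>
  ⟨HD_of_Dr h.mx (hD i hi).1, HD_of_Dr h.mx (hD i hi).2⟩

/-- a colour outside near the slot is behind it -/
theorem outc_hd (w : WinData T z L R) {u : ℝ} {j i : Fin 6}
    (hL : L i ∈ HD U z i) (hR : R i ∈ HD U z i)
    (ho : OutN U z (pt z (u + (j.val : ℝ))) i) :
    outc (wn L R u i) (wr L R u i) (j.val : ZMod 6) := by
  obtain ⟨n, h1, h2⟩ := behind (w.lt i) ((hL _).1 ho) ((hR _).1 ho)
  have h3 := (outc_iff (i := i) (w.le i) u (j.val : ℤ)).2 ⟨n, by push_cast; linarith,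
    by push_cast; linarith⟩
  simpa using h3

/-- a colour inside near the slot is in front of it -/
theorem innc_hd (w : WinData T z L R) {u : ℝ} {j i : Fin 6}
    (hL : L i ∈ HD U z i) (hR : R i ∈ HD U z i)
    (ho : InnN U z (pt z (u + (j.val : ℝ))) i) :
    innc (wn L R u i) (wr L R u i) (j.val : ZMod 6) := by
  have e : ∀ x t : ℝ, 0 ≤ Real.cos ((x - t) * (Real.pi / 3)) →
      Real.cos ((x - (t + 3)) * (Real.pi / 3)) ≤ 0 := by
    intro x t hx
    have e1 : (x - (t + 3)) * (Real.pi / 3) = (x - t) * (Real.pi / 3) - Real.pi := by ring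
    rw [e1, Real.cos_sub_pi]
    linarith
  obtain ⟨n, h1, h2⟩ := behind (w.lt i) (e _ _ ((hL _).2 ho))
    (e _ _ ((hR _).2 ho))
  have h3 := (innc_iff (i := i) (w.le i) u (j.val : ℤ)).2 ⟨n - 1, by push_cast; linarith,
    by push_cast; linarith⟩
  simpa using h3

/-- **The XC relation.** -/
theorem xc_rel_hd (h : Irr U T) (w : WinData T z L R) {Sd : Fin 6 → Prop}
    (hD : ∀ i, Sd i → L i ∈ HD U z i ∧ R i ∈ HD U z i) {u : ℝ} {s s' : St}
    (hs : s ∈ LS T z L R u) (hs' : s' ∈ RS T z L R u) : XCRel Sd s s' := by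
  have e1 := WinData.LS_win hs
  have e2 := WinData.RS_win hs'
  have ho : ∀ (j : Fin 6) {p q : Fin 6 × Fin 6},
      (∃ i ∈ T (pt z (u + (j.val : ℝ))), offl p q i ∧ OutN U z (pt z (u + (j.val : ℝ))) i) →
      ∃ i, offl p q i ∧ (Sd i → outc (s.2 i) (s'.2 i) (j.val : ZMod 6)) := by
    rintro j p q ⟨i, -, h1, h2⟩
    refine ⟨i, h1, fun hi => ?_⟩
    rw [e1, e2]
    exact outc_hd w (hD i hi).1 (hD i hi).2 h2
  have hi : ∀ (j : Fin 6) {p q : Fin 6 × Fin 6},
      (∃ i ∈ T (pt z (u + (j.val : ℝ))), offl p q i ∧ InnN U z (pt z (u + (j.val : ℝ))) i) →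
      ∃ i, offl p q i ∧ (Sd i → innc (s.2 i) (s'.2 i) (j.val : ZMod 6)) := by
    rintro j p q ⟨i, -, h1, h2⟩
    refine ⟨i, h1, fun hi => ?_⟩
    rw [e1, e2]
    exact innc_hd w (hD i hi).1 (hD i hi).2 h2
  intro j
  exact ⟨⟨ho j (xc_out_st h w hs hs' j (Or.inl ⟨rfl, rfl⟩)),
      ho j (xc_out_st h w hs hs' j (Or.inr (Or.inl ⟨rfl, rfl⟩))),
      ho j (xc_out_st h w hs hs' j (Or.inr (Or.inr ⟨rfl, rfl⟩)))⟩,
    ⟨hi j (xc_inn_st h w hs hs' j (Or.inl ⟨rfl, rfl⟩)),
      hi j (xc_inn_st h w hs hs' j (Or.inr (Or.inl ⟨rfl, rfl⟩))),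
      hi j (xc_inn_st h w hs hs' j (Or.inr (Or.inr ⟨rfl, rfl⟩)))⟩⟩

theorem step_all_hd (h : Irr U T) (w : WinData T z L R) {Sd : Fin 6 → Prop}
    (hD : ∀ i, Sd i → L i ∈ HD U z i ∧ R i ∈ HD U z i) {u : ℝ} {s s' : St}
    (hs : s ∈ LS T z L R u) (hs' : s' ∈ RS T z L R u) :
    Step Sd s s' ∧ ((s'.2 = s.2) ↔ u ∉ WinData.M L R) := by
  have e1 := WinData.LS_win hs
  have e2 := WinData.RS_win hs'
  refine ⟨⟨LS_ok h w hs, RS_ok h w hs', fun i => ?_, xc_rel_hd h w hD hs hs'⟩, ?_⟩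
  · rw [e1, e2]
    exact win_step (w.le i) u
  · rw [e1, e2]
    exact win_same_iff w.le

/-- **The potential theorem** with the rules of this file: a potential which is invariant under the
turn, never rises at a step and falls when a window moves. -/
theorem false_of_pot_hd (h : Irr U T) (w : WinData T z L R) {Sd : Fin 6 → Prop}
    (hD : ∀ i, Sd i → L i ∈ HD U z i ∧ R i ∈ HD U z i) {φ : St → ℕ}
    (hsh : ∀ s, OkSt s → φ (H429.shift s) = φ s)
    (step : ∀ s s', Step Sd s s' → φ s' ≤ φ s ∧ (s'.2 ≠ s.2 → φ s' < φ s)) : False := by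
  refine WinData.false_pot h z L R (φ := φ) (fun t ht => hsh _ (ok_st h w ht))
    fun u s hs s' hs' => ?_
  obtain ⟨h1, h2⟩ := step_all_hd h w hD hs hs'
  obtain ⟨h3, h4⟩ := step s s' h1
  refine ⟨h3, fun hu => h4 fun he => ?_⟩
  exact (h2.1 he) hu

/-- the static rules at a generic time -/
theorem step_self_hd (h : Irr U T) (w : WinData T z L R) {Sd : Fin 6 → Prop}
    (hD : ∀ i, Sd i → L i ∈ HD U z i ∧ R i ∈ HD U z i) {v : ℝ}
    (hv : v ∈ WinData.G T z L R) :
    Step Sd (WinData.st T z L R v) (WinData.st T z L R v) :=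
  (step_all_hd h w hD (st_LR h hv).1 (st_LR h hv).2).1

theorem stepC_all_hd (h : Irr U T) (w : WinData T z L R) {Sd : Fin 6 → Prop}
    (hD : ∀ i, Sd i → L i ∈ HD U z i ∧ R i ∈ HD U z i) {u : ℝ} {s s' : St}
    (hs : s ∈ LS T z L R u) (hs' : s' ∈ RS T z L R u) :
    StepC Sd s s' ∧ ((s'.2 = s.2) ↔ u ∉ WinData.M L R) := by
  obtain ⟨h1, h2⟩ := step_all_hd h w hD hs hs'
  have f1 : ∃ᶠ v in 𝓝[<] u, v ∈ WinData.G T z L R ∧ WinData.st T z L R v = s := hs
  have f2 : ∃ᶠ v in 𝓝[>] u, v ∈ WinData.G T z L R ∧ WinData.st T z L R v = s' := hs'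
  refine ⟨⟨h1, LS_cov w hs, RS_cov w hs', ?_, ?_⟩, h2⟩
  · obtain ⟨v, hv, rfl⟩ := f1.exists
    exact step_self_hd h w hD hv
  · obtain ⟨v, hv, rfl⟩ := f2.exists
    exact step_self_hd h w hD hv

/-- **The potential theorem** with the cover of the rays. -/
theorem false_of_potC_hd (h : Irr U T) (w : WinData T z L R) {Sd : Fin 6 → Prop}
    (hD : ∀ i, Sd i → L i ∈ HD U z i ∧ R i ∈ HD U z i) {φ : St → ℕ}
    (hsh : ∀ s, Step Sd s s → CovSt s → φ (H429.shift s) = φ s)
    (step : ∀ s s', StepC Sd s s' → φ s' ≤ φ s ∧ (s'.2 ≠ s.2 → φ s' < φ s)) : False := by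
  refine WinData.false_pot h z L R (φ := φ)
    (fun t ht => hsh _ (step_self_hd h w hD ht) (cov_st w ht.2)) fun u s hs s' hs' => ?_
  obtain ⟨h1, h2⟩ := stepC_all_hd h w hD hs hs'
  obtain ⟨h3, h4⟩ := step s s' h1
  refine ⟨h3, fun hu => h4 fun he => ?_⟩
  exact (h2.1 he) hu

/-- **A turn is a closed word of steps**: for every relation `E` which contains the steps that
occur, some valid state reaches its shift -/
theorem exists_turn_hd (h : Irr U T) (w : WinData T z L R) {Sd : Fin 6 → Prop}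
    (hD : ∀ i, Sd i → L i ∈ HD U z i ∧ R i ∈ HD U z i) {E : St → St → Prop}
    (step : ∀ u, ∀ s ∈ LS T z L R u, ∀ s' ∈ RS T z L R u, StepC Sd s s' → E s s') :
    ∃ s, Step Sd s s ∧ CovSt s ∧ Relation.ReflTransGen E s (H429.shift s) := by
  obtain ⟨a, ha⟩ := (WinData.G_dense h z L R).nonempty
  have h1 := reach h (P := fun s => Relation.ReflTransGen E (WinData.st T z L R a) s)
    (show a < a + 1 by linarith) ha (WinData.G_turn ha)
    (fun u s hs s' hs' hp => hp.tail (step u s hs s' hs' (stepC_all_hd h w hD hs hs').1))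
    Relation.ReflTransGen.refl
  rw [WinData.st_turn] at h1
  exact ⟨_, step_self_hd h w hD ha, cov_st w ha.2, h1⟩

/-- **The label theorem**: a label which is invariant under the steps that occur and changes under
the turn is impossible. -/
theorem false_of_label_hd (h : Irr U T) (w : WinData T z L R) {Sd : Fin 6 → Prop}
    (hD : ∀ i, Sd i → L i ∈ HD U z i ∧ R i ∈ HD U z i) {α : Type*}
    {F : St → α} (hsh : ∀ s, Step Sd s s → CovSt s → F (H429.shift s) ≠ F s)
    (step : ∀ u, ∀ s ∈ LS T z L R u, ∀ s' ∈ RS T z L R u, StepC Sd s s' → F s' = F s) : False := by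
  obtain ⟨a, ha⟩ := (WinData.G_dense h z L R).nonempty
  have h1 := reach h (P := fun s => F s = F (WinData.st T z L R a))
    (show a < a + 1 by linarith) ha (WinData.G_turn ha)
    (fun u s hs s' hs' hp => (step u s hs s' hs' (stepC_all_hd h w hD hs hs').1).trans hp) rfl
  rw [WinData.st_turn] at h1
  exact hsh _ (step_self_hd h w hD ha) (cov_st w ha.2) h1

end

section

open Vale.Agent.P032.H728
open Vale.Agent.P032.H158 (OkSt Step XCRel WStep ok_st)

variable {U : Fin 6 → Set ℂ} {T : ℂ → Set (Fin 6)} {z : ℂ} {L R : Fin 6 → ℝ}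

/-- **The counted form** with the rules of `Step`. -/
theorem false_of_cnt_hd (h : Irr U T) (w : WinData T z L R) {Sd : Fin 6 → Prop}
    (hD : ∀ i, Sd i → L i ∈ HD U z i ∧ R i ∈ HD U z i) {S0 : St → Prop}
    (h0 : ∃ t ∈ WinData.G T z L R, S0 (WinData.st T z L R t)) {A : St → Cl → Cn → Prop}
    (init : ∀ s0, S0 s0 → OkSt s0 → A s0 s0.1 (fun _ => (false, false)))
    (step : ∀ s0, S0 s0 → OkSt s0 → ∀ g c g' c', A s0 g c → leC c c' →
      Step Sd (g, mvW s0.2 c) (g', mvW s0.2 c') → A s0 g' c')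
    (fin : ∀ s0, S0 s0 → OkSt s0 → ¬ A s0 (H429.shift s0).1 (fun _ => (true, true))) : False := by
  obtain ⟨a, haG, ha⟩ := h0
  have hok := ok_st h w haG
  refine false_of_run h w haG (A := A (WinData.st T z L R a)) (init _ ha hok) ?_ (fin _ ha hok)
  intro u _ g c g' c' hA hc hs hs'
  exact step _ ha hok g c g' c' hA hc (step_all_hd h w hD hs hs').1

theorem okC_gen_hd (h : Irr U T) (w : WinData T z L R) {Sd : Fin 6 → Prop}
    (hD : ∀ i, Sd i → L i ∈ HD U z i ∧ R i ∈ HD U z i)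
    {E : St → St → Prop}
    (hE : ∀ u, ∀ s ∈ LS T z L R u, ∀ s' ∈ RS T z L R u, E s s') {v : ℝ}
    (hv : v ∈ WinData.G T z L R) : OkC Sd E (WinData.st T z L R v) := by
  obtain ⟨h1, h2⟩ := gen_LS_RS h hv
  exact ⟨ok_st h w hv, cov_wn w hv.2, xc_rel_hd h w hD h1 h2, hE v _ h1 _ h2⟩

theorem stepC_hd (h : Irr U T) (w : WinData T z L R) {Sd : Fin 6 → Prop}
    (hD : ∀ i, Sd i → L i ∈ HD U z i ∧ R i ∈ HD U z i)
    {E : St → St → Prop}
    (hE : ∀ u, ∀ s ∈ LS T z L R u, ∀ s' ∈ RS T z L R u, E s s') {u : ℝ} {s s' : St}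
    (hs : s ∈ LS T z L R u) (hs' : s' ∈ RS T z L R u) : StepC Sd E s s' := by
  obtain ⟨h1, -⟩ := step_all_hd h w hD hs hs'
  refine ⟨?_, ?_, h1.win, h1.xc, hE u s hs s' hs'⟩
  · obtain ⟨v, hv, rfl⟩ := LS_gen hs
    exact okC_gen_hd h w hD hE hv
  · obtain ⟨v, hv, rfl⟩ := RS_gen hs'
    exact okC_gen_hd h w hD hE hv

/-- **The invariant form**: a label which is constant along the steps and changes at the turn. -/
theorem false_of_inv_hd (h : Irr U T) (w : WinData T z L R) {Sd : Fin 6 → Prop}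
    (hD : ∀ i, Sd i → L i ∈ HD U z i ∧ R i ∈ HD U z i)
    {E : St → St → Prop}
    (hE : ∀ u, ∀ s ∈ LS T z L R u, ∀ s' ∈ RS T z L R u, E s s') {α : Type*} {F : St → α}
    (hinv : ∀ s s', StepC Sd E s s' → F s' = F s)
    (hturn : ∀ s, OkC Sd E s → F (H429.shift s) ≠ F s) : False := by
  obtain ⟨a, haG⟩ := (WinData.G_dense h z L R).nonempty
  refine false_of_run h w haG
    (A := fun g c => F (g, mvW (wn L R a) c) = F (WinData.st T z L R a)) ?_ ?_ ?_
  · have e : mvW (wn L R a) (fun _ => (false, false)) = wn L R a := by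
      rw [← cr_self L R a, ← wn_cr w.le le_rfl (by linarith)]
    show F (WinData.col T z L R a, mvW (wn L R a) fun _ => (false, false)) = _
    rw [e]
    rfl
  · intro u _ g c g' c' hA _ hs hs'
    exact (hinv _ _ (stepC_hd h w hD hE hs hs')).trans hA
  · intro hcon
    have e : mvW (wn L R a) (fun _ => (true, true)) = (H429.shift (WinData.st T z L R a)).2 := by
      rw [← cr_turn L R a, ← wn_cr w.le (by linarith) le_rfl, ← WinData.st_turn]
      rfl
    rw [e] at hcon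
    exact hturn _ (okC_gen_hd h w hD hE haG) hcon

/-- **The mixed form**: a potential outside `Fb`, the counted form from a start in `Fb`. -/
theorem false_of_mix_hd (h : Irr U T) (w : WinData T z L R) {Sd : Fin 6 → Prop}
    (hD : ∀ i, Sd i → L i ∈ HD U z i ∧ R i ∈ HD U z i)
    {E : St → St → Prop}
    (hE : ∀ u, ∀ s ∈ LS T z L R u, ∀ s' ∈ RS T z L R u, E s s') {Fb : St → Prop} {φ : St → ℕ}
    (hsh : ∀ s, OkC Sd E s → ¬ Fb s → φ (H429.shift s) = φ s)
    (pot : ∀ s s', StepC Sd E s s' → ¬ Fb s → ¬ Fb s' →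
      φ s' ≤ φ s ∧ (s'.2 ≠ s.2 → φ s' < φ s)) {A : St → Cl → Cn → Prop}
    (init : ∀ s0, Fb s0 → OkC Sd E s0 → A s0 s0.1 (fun _ => (false, false)))
    (step : ∀ s0, Fb s0 → OkC Sd E s0 → ∀ g c g' c', A s0 g c → leC c c' →
      StepC Sd E (g, mvW s0.2 c) (g', mvW s0.2 c') → A s0 g' c')
    (fin : ∀ s0, Fb s0 → OkC Sd E s0 → ¬ A s0 (H429.shift s0).1 (fun _ => (true, true))) :
    False := by
  by_cases hF : ∃ t ∈ WinData.G T z L R, Fb (WinData.st T z L R t)
  · obtain ⟨a, haG, ha⟩ := hF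
    have hok := okC_gen_hd h w hD hE haG
    refine false_of_run h w haG (A := A (WinData.st T z L R a)) (init _ ha hok) ?_
      (fin _ ha hok)
    intro u _ g c g' c' hA hc hs hs'
    exact step _ ha hok g c g' c' hA hc (stepC_hd h w hD hE hs hs')
  · push Not at hF
    refine WinData.false_pot h z L R (φ := φ)
      (fun t ht => hsh _ (okC_gen_hd h w hD hE ht) (hF t ht)) fun u s hs s' hs' => ?_
    have h2 := (step_all_hd h w hD hs hs').2
    have n1 : ¬ Fb s := by
      obtain ⟨v, hv, rfl⟩ := LS_gen hs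
      exact hF v hv
    have n2 : ¬ Fb s' := by
      obtain ⟨v, hv, rfl⟩ := RS_gen hs'
      exact hF v hv
    obtain ⟨h3, h4⟩ := pot s s' (stepC_hd h w hD hE hs hs') n1 n2
    exact ⟨h3, fun hu => h4 fun he => (h2.1 he) hu⟩

/-- **The hybrid form**: potential and label outside `Fb`, the counted form from a start in
`Fb`. -/
theorem false_of_hybcnt_hd (h : Irr U T) (w : WinData T z L R) {Sd : Fin 6 → Prop}
    (hD : ∀ i, Sd i → L i ∈ HD U z i ∧ R i ∈ HD U z i)
    {E : St → St → Prop}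
    (hE : ∀ u, ∀ s ∈ LS T z L R u, ∀ s' ∈ RS T z L R u, E s s') {α : Type*} {Fb : St → Prop}
    {φ : St → ℕ} {F : St → α}
    (hsh : ∀ s, OkC Sd E s → ¬ Fb s → φ (H429.shift s) = φ s ∧ F (H429.shift s) ≠ F s)
    (pot : ∀ s s', StepC Sd E s s' → ¬ Fb s → ¬ Fb s' →
      φ s' < φ s ∨ (φ s' = φ s ∧ F s' = F s)) {A : St → Cl → Cn → Prop}
    (init : ∀ s0, Fb s0 → OkC Sd E s0 → A s0 s0.1 (fun _ => (false, false)))
    (step : ∀ s0, Fb s0 → OkC Sd E s0 → ∀ g c g' c', A s0 g c → leC c c' →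
      StepC Sd E (g, mvW s0.2 c) (g', mvW s0.2 c') → A s0 g' c')
    (fin : ∀ s0, Fb s0 → OkC Sd E s0 → ¬ A s0 (H429.shift s0).1 (fun _ => (true, true))) :
    False := by
  by_cases hF : ∃ t ∈ WinData.G T z L R, Fb (WinData.st T z L R t)
  · obtain ⟨a, haG, ha⟩ := hF
    have hok := okC_gen_hd h w hD hE haG
    refine false_of_run h w haG (A := A (WinData.st T z L R a)) (init _ ha hok) ?_
      (fin _ ha hok)
    intro u _ g c g' c' hA hc hs hs'
    exact step _ ha hok g c g' c' hA hc (stepC_hd h w hD hE hs hs')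
  · push Not at hF
    obtain ⟨a, haG⟩ := (WinData.G_dense h z L R).nonempty
    obtain ⟨e1, e2⟩ := hsh _ (okC_gen_hd h w hD hE haG) (hF a haG)
    refine false_of_run h w haG (A := fun g c =>
      φ (g, mvW (wn L R a) c) < φ (WinData.st T z L R a) ∨
        (φ (g, mvW (wn L R a) c) = φ (WinData.st T z L R a) ∧
          F (g, mvW (wn L R a) c) = F (WinData.st T z L R a))) ?_ ?_ ?_
    · have e : mvW (wn L R a) (fun _ => (false, false)) = wn L R a := by
        rw [← cr_self L R a, ← wn_cr w.le le_rfl (by linarith)]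
      right
      rw [e]
      exact ⟨rfl, rfl⟩
    · intro u _ g c g' c' hA _ hs hs'
      have n1 : ¬ Fb (g, mvW (wn L R a) c) := by
        obtain ⟨v, hv, he⟩ := LS_gen hs
        rw [← he]; exact hF v hv
      have n2 : ¬ Fb (g', mvW (wn L R a) c') := by
        obtain ⟨v, hv, he⟩ := RS_gen hs'
        rw [← he]; exact hF v hv
      rcases pot _ _ (stepC_hd h w hD hE hs hs') n1 n2 with h3 | ⟨h3, h4⟩
      · left
        rcases hA with h5 | ⟨h5, -⟩
        · exact h3.trans h5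
        · rw [← h5]; exact h3
      · rw [h3, h4]
        exact hA
    · have e : mvW (wn L R a) (fun _ => (true, true)) = (H429.shift (WinData.st T z L R a)).2 := by
        rw [← cr_turn L R a, ← wn_cr w.le (by linarith) le_rfl, ← WinData.st_turn]
        rfl
      rw [e]
      show ¬ (φ (H429.shift (WinData.st T z L R a)) < φ (WinData.st T z L R a) ∨
        (φ (H429.shift (WinData.st T z L R a)) = φ (WinData.st T z L R a) ∧
          F (H429.shift (WinData.st T z L R a)) = F (WinData.st T z L R a)))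
      rintro (h3 | ⟨-, h3⟩)
      · rw [e1] at h3
        exact lt_irrefl _ h3
      · exact e2 h3

/-- **The counted form from a state of minimal rank.**  `P` holds at all generic times. -/
theorem false_of_rank_hd (h : Irr U T) (w : WinData T z L R) {Sd : Fin 6 → Prop}
    (hD : ∀ i, Sd i → L i ∈ HD U z i ∧ R i ∈ HD U z i)
    {E : St → St → Prop}
    (hE : ∀ u, ∀ s ∈ LS T z L R u, ∀ s' ∈ RS T z L R u, E s s') {P : St → Prop}
    (hP : ∀ t ∈ WinData.G T z L R, P (WinData.st T z L R t)) (rk : St → ℕ)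
    {A : St → Cl → Cn → Prop}
    (init : ∀ s0, OkC Sd E s0 → P s0 → A s0 s0.1 (fun _ => (false, false)))
    (step : ∀ s0, OkC Sd E s0 → P s0 → ∀ g c g' c', A s0 g c → leC c c' →
      StepC Sd E (g, mvW s0.2 c) (g', mvW s0.2 c') → P (g, mvW s0.2 c) → P (g', mvW s0.2 c') →
      rk s0 ≤ rk (g, mvW s0.2 c) → rk s0 ≤ rk (g', mvW s0.2 c') → A s0 g' c')
    (fin : ∀ s0, OkC Sd E s0 → P s0 → ¬ A s0 (H429.shift s0).1 (fun _ => (true, true))) :
    False := by
  classical
  have hex : ∃ n, ∃ t ∈ WinData.G T z L R, rk (WinData.st T z L R t) = n := by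
    obtain ⟨a, haG⟩ := (WinData.G_dense h z L R).nonempty
    exact ⟨_, a, haG, rfl⟩
  obtain ⟨a, haG, ha⟩ := Nat.find_spec hex
  have hmin : ∀ t ∈ WinData.G T z L R, rk (WinData.st T z L R a) ≤ rk (WinData.st T z L R t) := by
    intro t ht
    rw [ha]
    exact Nat.find_min' hex ⟨t, ht, rfl⟩
  have hok := okC_gen_hd h w hD hE haG
  have hPa := hP a haG
  refine false_of_run h w haG (A := A (WinData.st T z L R a)) (init _ hok hPa) ?_ (fin _ hok hPa)
  intro u _ g c g' c' hA hc hs hs'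
  obtain ⟨v, hv, hv'⟩ := LS_gen hs
  obtain ⟨x, hx, hx'⟩ := RS_gen hs'
  refine step _ hok hPa g c g' c' hA hc (stepC_hd h w hD hE hs hs') ?_ ?_ ?_ ?_
  · show P (g, mvW (wn L R a) c)
    rw [← hv']
    exact hP v hv
  · show P (g', mvW (wn L R a) c')
    rw [← hx']
    exact hP x hx
  · show _ ≤ rk (g, mvW (wn L R a) c)
    rw [← hv']
    exact hmin v hv
  · show _ ≤ rk (g', mvW (wn L R a) c')
    rw [← hx']
    exact hmin x hx

/-- **The counted form** with a set of starts and a predicate `P` at all generic times. -/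
theorem false_of_cntE_hd (h : Irr U T) (w : WinData T z L R) {Sd : Fin 6 → Prop}
    (hD : ∀ i, Sd i → L i ∈ HD U z i ∧ R i ∈ HD U z i)
    {E : St → St → Prop}
    (hE : ∀ u, ∀ s ∈ LS T z L R u, ∀ s' ∈ RS T z L R u, E s s') {S0 P : St → Prop}
    (h0 : ∃ t ∈ WinData.G T z L R, S0 (WinData.st T z L R t))
    (hP : ∀ t ∈ WinData.G T z L R, P (WinData.st T z L R t)) {A : St → Cl → Cn → Prop}
    (init : ∀ s0, S0 s0 → OkC Sd E s0 → P s0 → A s0 s0.1 (fun _ => (false, false)))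
    (step : ∀ s0, S0 s0 → OkC Sd E s0 → P s0 → ∀ g c g' c', A s0 g c → leC c c' →
      StepC Sd E (g, mvW s0.2 c) (g', mvW s0.2 c') → P (g, mvW s0.2 c) → P (g', mvW s0.2 c') →
      A s0 g' c')
    (fin : ∀ s0, S0 s0 → OkC Sd E s0 → P s0 →
      ¬ A s0 (H429.shift s0).1 (fun _ => (true, true))) : False := by
  obtain ⟨a, haG, ha⟩ := h0
  have hok := okC_gen_hd h w hD hE haG
  have hPa := hP a haG
  refine false_of_run h w haG (A := A (WinData.st T z L R a)) (init _ ha hok hPa) ?_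
    (fin _ ha hok hPa)
  intro u _ g c g' c' hA hc hs hs'
  obtain ⟨v, hv, hv'⟩ := LS_gen hs
  obtain ⟨x, hx, hx'⟩ := RS_gen hs'
  refine step _ ha hok hPa g c g' c' hA hc (stepC_hd h w hD hE hs hs') ?_ ?_
  · show P (g, mvW (wn L R a) c)
    rw [← hv']
    exact hP v hv
  · show P (g', mvW (wn L R a) c')
    rw [← hx']
    exact hP x hx

end

section

open Vale.Agent.P032.H453
open Vale.Agent.P032.H158 (OkSt Step XCRel WStep ok_st)

variable {U : Fin 6 → Set ℂ} {T : ℂ → Set (Fin 6)} {z : ℂ} {L R : Fin 6 → ℝ}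

/-- **The label theorem over `Step`.**  `K` : further facts about the limit states at one time. -/
theorem false_of_lab_hd (h : Irr U T) (w : WinData T z L R) {Sd : Fin 6 → Prop}
    (hD : ∀ i, Sd i → L i ∈ HD U z i ∧ R i ∈ HD U z i) {K : St → St → Prop}
    (hK : ∀ u, ∀ s ∈ LS T z L R u, ∀ s' ∈ RS T z L R u, K s s') {α : Type*} {F : St → α}
    (hsh : ∀ s, OkSt s → Cov s → F (H429.shift s) ≠ F s)
    (step : ∀ s s', Step Sd s s' → Cov s → Cov s' → K s s' → F s' = F s) : False :=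
  WinData.false_lab h z L R (F := F) (fun _ ht => hsh _ (ok_st h w ht) (cov_st w ht.2))
    fun u s hs s' hs' => step s s' (step_all_hd h w hD hs hs').1 (LS_cov w hs) (RS_cov w hs')
      (hK u s hs s' hs')

/-- **Potential with label over `Step`.** -/
theorem false_of_hyb_hd (h : Irr U T) (w : WinData T z L R) {Sd : Fin 6 → Prop}
    (hD : ∀ i, Sd i → L i ∈ HD U z i ∧ R i ∈ HD U z i) {K : St → St → Prop}
    (hK : ∀ u, ∀ s ∈ LS T z L R u, ∀ s' ∈ RS T z L R u, K s s') {α : Type*} {φ : St → ℕ}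
    {F : St → α} (hφ : ∀ s, OkSt s → Cov s → φ (H429.shift s) = φ s)
    (hsh : ∀ s, OkSt s → Cov s → F (H429.shift s) ≠ F s)
    (step : ∀ s s', Step Sd s s' → Cov s → Cov s' → K s s' →
      φ s' < φ s ∨ (φ s' = φ s ∧ F s' = F s)) : False :=
  WinData.false_hyb h z L R (φ := φ) (F := F) (fun _ ht => hφ _ (ok_st h w ht) (cov_st w ht.2))
    (fun _ ht => hsh _ (ok_st h w ht) (cov_st w ht.2))
    fun u s hs s' hs' => step s s' (step_all_hd h w hD hs hs').1 (LS_cov w hs) (RS_cov w hs')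
      (hK u s hs s' hs')

/-- **The relation theorem over `Step`.** -/
theorem false_of_rel_hd (h : Irr U T) (w : WinData T z L R) {Sd : Fin 6 → Prop}
    (hD : ∀ i, Sd i → L i ∈ HD U z i ∧ R i ∈ HD U z i) {K : St → St → Prop}
    (hK : ∀ u, ∀ s ∈ LS T z L R u, ∀ s' ∈ RS T z L R u, K s s') {Q : St → St → Prop}
    (refl : ∀ s, Q s s) (trans : ∀ s s' s'', Q s s' → Q s' s'' → Q s s'')
    (hsh : ∀ s, OkSt s → Cov s → ¬ Q s (H429.shift s))
    (step : ∀ s s', Step Sd s s' → Cov s → Cov s' → K s s' → Q s s') : False :=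
  WinData.false_rel h z L R refl trans (fun _ ht => hsh _ (ok_st h w ht) (cov_st w ht.2))
    fun u s hs s' hs' => step s s' (step_all_hd h w hD hs hs').1 (LS_cov w hs) (RS_cov w hs')
      (hK u s hs s' hs')

end

end Vale.Agent.P032.H448
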