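import Mathlib.Tactic
import Mathlib.Topology.Order.OrderClosed
import Mathlib.Topology.Instances.Real.Lemmas

/-!
# P032: six arcs which cover the circle, with the nerve of a hexagon

`L i ≤ R i < L i + 3`, the arcs `[L i, R i] + 6 ℤ` cover the line, the arcs of `i` and `i + 2`,
`i + 3`, `i + 4` are disjoint.  Then the left ends are cyclically ordered: `exists_tiles448`.
-/

open Set Filter Topology

namespace Vale.Agent.P032.H448

/-- the residue modulo six -/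
def ix448 (i : ℤ) : Fin 6 := ⟨(i % 6).toNat, by omega⟩

theorem ix_of448 (q : ℤ) {r : ℕ} (hr : r < 6) : ix448 (6 * q + r) = ⟨r, hr⟩ := by
  unfold ix448
  apply Fin.ext
  show ((6 * q + (r : ℤ)) % 6).toNat = r
  omega

/-- the tiles `[b i, b (i + 1)]` start at the left ends of the arcs -/
structure Tile448 (L R : Fin 6 → ℝ) (g : ℤ → Fin 6) (b : ℤ → ℝ) : Prop where
  mono : ∀ i, b i ≤ b (i + 1)
  per : ∀ i, b (i + 6) = b i + 6
  left : ∀ i, ∃ n : ℤ, b i = L (g i) + 6 * n ∧ b (i + 1) ≤ R (g i) + 6 * n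

/-- the arcs -/
structure Arcs448 (L R : Fin 6 → ℝ) : Prop where
  le : ∀ i, L i ≤ R i
  lt : ∀ i, R i < L i + 3
  cover : ∀ s : ℝ, ∃ i, ∃ n : ℤ, L i + 6 * n ≤ s ∧ s ≤ R i + 6 * n
  disj : ∀ i j : Fin 6, (j = i + 2 ∨ j = i + 3 ∨ j = i + 4) → ∀ (n m : ℤ) (s : ℝ),
    L i + 6 * n ≤ s → s ≤ R i + 6 * n → L j + 6 * m ≤ s → s ≤ R j + 6 * m → False

variable {L R : Fin 6 → ℝ}

theorem int_lt_one448 {n : ℤ} {x : ℝ} (h : 6 * (n : ℝ) < x) (hx : x ≤ 6) : n ≤ 0 := by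
  by_contra hcon
  push Not at hcon
  have : (1 : ℝ) ≤ n := by exact_mod_cast hcon
  linarith

theorem Arcs448.succ (A : Arcs448 L R) (i : Fin 6) : ∃ j, j ≠ i ∧ ∃ n : ℤ,
    L j + 6 * n ≤ R i ∧ R i < R j + 6 * n := by
  -- some arc meets all right neighbourhoods of `R i`
  obtain ⟨j, hj⟩ : ∃ j : Fin 6, ∃ᶠ s in 𝓝[>] (R i), ∃ n : ℤ, L j + 6 * n ≤ s ∧ s ≤ R j + 6 * n := by
    by_contra hcon
    push Not at hcon
    have h1 : ∀ᶠ s in 𝓝[>] (R i), ∀ j : Fin 6, ¬ ∃ n : ℤ, L j + 6 * n ≤ s ∧ s ≤ R j + 6 * n := by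
      rw [eventually_all]
      intro j
      filter_upwards [hcon j] with s hs
      rintro ⟨n, h1, h2⟩
      exact absurd h2 (not_le.2 (hs n h1))
    obtain ⟨s, hs⟩ := h1.exists
    obtain ⟨j, n, h2⟩ := A.cover s
    exact hs j ⟨n, h2⟩
  have hev : ∀ ε : ℝ, 0 < ε → ∃ s, R i < s ∧ s < R i + ε ∧ ∃ n : ℤ, L j + 6 * n ≤ s ∧
      s ≤ R j + 6 * n := by
    intro ε hε
    have h1 : Ioo (R i) (R i + ε) ∈ 𝓝[>] (R i) := Ioo_mem_nhdsGT (by linarith)
    obtain ⟨s, hs, hs'⟩ := (hj.and_eventually h1).exists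
    exact ⟨s, hs'.1, hs'.2, hs⟩
  obtain ⟨s, h1, h2, n, h3, h4⟩ := hev 1 one_pos
  have hlt := A.lt
  have hle := A.le
  have huniq : ∀ ε : ℝ, 0 < ε → ε ≤ 1 → ∃ s, R i < s ∧ s < R i + ε ∧ L j + 6 * n ≤ s := by
    intro ε hε hε1
    obtain ⟨s', k1, k2, n', k3, k4⟩ := hev ε hε
    have e : n' = n := by
      have a1 : n' - n ≤ 0 := by
        apply int_lt_one448 (x := 4) _ (by norm_num)
        push_cast
        linarith [hlt j]
      have a2 : n - n' ≤ 0 := by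
        apply int_lt_one448 (x := 4) _ (by norm_num)
        push_cast
        linarith [hlt j]
      omega
    subst e
    exact ⟨s', k1, k2, k3⟩
  have h5 : L j + 6 * n ≤ R i := by
    by_contra hcon
    push Not at hcon
    obtain ⟨s', k1, k2, k3⟩ := huniq (min 1 (L j + 6 * n - R i)) (by
      apply lt_min one_pos; linarith) (min_le_left _ _)
    have := min_le_right 1 (L j + 6 * n - R i)
    linarith
  refine ⟨j, ?_, n, h5, by linarith⟩
  rintro rfl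
  have a1 : -n ≤ 0 := by
    apply int_lt_one448 (x := 1) _ (by norm_num)
    push_cast
    have : L j + 6 * n ≤ R j := h5
    by_contra hcon
    push Not at hcon
    linarith [hle j]
  have a2 : n ≤ 0 := by
    apply int_lt_one448 (x := 3) _ (by norm_num)
    linarith [hlt j]
  have : n = 0 := by omega
  subst this
  push_cast at h4
  linarith

/-- the next arc is the next one in the numbering, or the previous one -/
theorem Arcs448.succ' (A : Arcs448 L R) (i : Fin 6) :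
    (∃ n : ℤ, L (i + 1) + 6 * n ≤ R i ∧ R i < R (i + 1) + 6 * n) ∨
    (∃ n : ℤ, L (i + 5) + 6 * n ≤ R i ∧ R i < R (i + 5) + 6 * n) := by
  obtain ⟨j, hj, n, h1, h2⟩ := A.succ i
  have hc : ∀ i j : Fin 6, j ≠ i → (j = i + 1 ∨ j = i + 5) ∨ (j = i + 2 ∨ j = i + 3 ∨ j = i + 4) := by
    decide
  rcases hc i j hj with (h3 | h3) | h3
  · subst h3; exact Or.inl ⟨n, h1, h2⟩
  · subst h3; exact Or.inr ⟨n, h1, h2⟩
  · refine (A.disj i j h3 0 n (R i) ?_ ?_ h1 h2.le).elim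
    · push_cast; linarith [A.le i]
    · push_cast; linarith

theorem add15_448 : ∀ i : Fin 6, i + 1 + 5 = i := by decide
theorem add51_448 : ∀ i : Fin 6, i + 5 + 1 = i := by decide
theorem add52_448 : ∀ i : Fin 6, i + 1 = (i + 5) + 2 := by decide

theorem Arcs448.step (A : Arcs448 L R) {i : Fin 6}
    (h : ∃ n : ℤ, L (i + 1) + 6 * n ≤ R i ∧ R i < R (i + 1) + 6 * n) :
    ∃ n : ℤ, L (i + 1 + 1) + 6 * n ≤ R (i + 1) ∧ R (i + 1) < R (i + 1 + 1) + 6 * n := by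
  rcases A.succ' (i + 1) with h1 | h1
  · exact h1
  · exfalso
    obtain ⟨n, h2, h3⟩ := h
    obtain ⟨m, h4, h5⟩ := h1
    rw [add15_448] at h4 h5
    have hlt := A.lt
    have a1 : -(m + n) < 0 := by
      have a2 : (0 : ℝ) < 6 * ((m + n : ℤ) : ℝ) := by push_cast; linarith
      have a3 : (0 : ℝ) < ((m + n : ℤ) : ℝ) := by linarith
      have a4 : (0 : ℤ) < m + n := by exact_mod_cast a3
      omega
    have a5 : (1 : ℝ) ≤ ((m + n : ℤ) : ℝ) := by exact_mod_cast (by omega : (1 : ℤ) ≤ m + n)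
    push_cast at a5
    linarith [hlt i, hlt (i + 1)]

/-- all arcs are followed by the next one -/
def Fwd448 (L R : Fin 6 → ℝ) : Prop :=
  ∀ i : Fin 6, ∃ n : ℤ, L (i + 1) + 6 * n ≤ R i ∧ R i < R (i + 1) + 6 * n

theorem Arcs448.fwd (A : Arcs448 L R)
    (h : ∃ n : ℤ, L (0 + 1) + 6 * n ≤ R 0 ∧ R 0 < R (0 + 1) + 6 * n) : Fwd448 L R := by
  have h1 := A.step h
  have h2 := A.step h1
  have h3 := A.step h2
  have h4 := A.step h3
  have h5 := A.step h4
  intro i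
  fin_cases i
  · exact h
  · exact h1
  · exact h2
  · exact h3
  · exact h4
  · exact h5

theorem Arcs448.rev (A : Arcs448 L R) : Arcs448 (fun i => L (-i)) (fun i => R (-i)) where
  le i := A.le _
  lt i := A.lt _
  cover s := by
    obtain ⟨i, n, h⟩ := A.cover s
    exact ⟨-i, n, by simpa using h⟩
  disj i j hj := by
    have hc : ∀ i j : Fin 6, (j = i + 2 ∨ j = i + 3 ∨ j = i + 4) →
        (-j = -i + 2 ∨ -j = -i + 3 ∨ -j = -i + 4) := by decide
    exact A.disj (-i) (-j) (hc i j hj)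

/-- the left ends are in order -/
theorem Arcs448.left_le (A : Arcs448 L R) (F : Fwd448 L R) {i : Fin 6} {n : ℤ}
    (h1 : L (i + 1) + 6 * n ≤ R i) (h2 : R i < R (i + 1) + 6 * n) : L i ≤ L (i + 1) + 6 * n := by
  by_contra hcon
  push Not at hcon
  obtain ⟨m, h3, h4⟩ := F (i + 5)
  rw [add51_448] at h3 h4
  refine A.disj (i + 5) (i + 1) (Or.inl (add52_448 i)) 0 (n + m) (R (i + 5)) ?_ ?_ ?_ ?_
  · push_cast; linarith [A.le (i + 5)]
  · push_cast; linarith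
  · push_cast; linarith
  · push_cast; linarith

/-- the arcs in the order of the numbering go round once -/
theorem Arcs448.tiles_fwd (A : Arcs448 L R) (F : Fwd448 L R) : ∃ b, Tile448 L R ix448 b := by
  choose N hN using F
  have F : Fwd448 L R := fun i => ⟨N i, hN i⟩
  have hl : ∀ i, L i ≤ L (i + 1) + 6 * N i := fun i => A.left_le F (hN i).1 (hN i).2
  obtain ⟨a0, b0⟩ : L 1 + 6 * N 0 ≤ R 0 ∧ R 0 < R 1 + 6 * N 0 := hN 0
  obtain ⟨a1, b1⟩ : L 2 + 6 * N 1 ≤ R 1 ∧ R 1 < R 2 + 6 * N 1 := hN 1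
  obtain ⟨a2, b2⟩ : L 3 + 6 * N 2 ≤ R 2 ∧ R 2 < R 3 + 6 * N 2 := hN 2
  obtain ⟨a3, b3⟩ : L 4 + 6 * N 3 ≤ R 3 ∧ R 3 < R 4 + 6 * N 3 := hN 3
  obtain ⟨a4, b4⟩ : L 5 + 6 * N 4 ≤ R 4 ∧ R 4 < R 5 + 6 * N 4 := hN 4
  obtain ⟨a5, b5⟩ : L 0 + 6 * N 5 ≤ R 5 ∧ R 5 < R 0 + 6 * N 5 := hN 5
  have l0 : L 0 ≤ L 1 + 6 * N 0 := hl 0
  have l1 : L 1 ≤ L 2 + 6 * N 1 := hl 1
  have l2 : L 2 ≤ L 3 + 6 * N 2 := hl 2
  have l3 : L 3 ≤ L 4 + 6 * N 3 := hl 3
  have l4 : L 4 ≤ L 5 + 6 * N 4 := hl 4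
  have l5 : L 5 ≤ L 0 + 6 * N 5 := hl 5
  have t0 := A.lt 0
  have t1 := A.lt 1
  have k0 := A.le 0
  have hK : N 0 + N 1 + N 2 + N 3 + N 4 + N 5 = 1 := by
    have c1 : (0 : ℝ) < ((N 0 + N 1 + N 2 + N 3 + N 4 + N 5 : ℤ) : ℝ) := by push_cast; linarith
    have c2 : 0 < N 0 + N 1 + N 2 + N 3 + N 4 + N 5 := by exact_mod_cast c1
    by_contra hcon
    have c3 : (2 : ℤ) ≤ N 0 + N 1 + N 2 + N 3 + N 4 + N 5 := by omega
    have c4 : (2 : ℝ) ≤ ((N 0 + N 1 + N 2 + N 3 + N 4 + N 5 : ℤ) : ℝ) := by exact_mod_cast c3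
    push_cast at c4
    by_cases d2 : R 0 + 6 ≤ R 2 + 6 * (N 0 + N 1)
    · refine A.disj 0 2 (Or.inl rfl) 1 (N 0 + N 1) (R 0 + 6) ?_ ?_ ?_ ?_ <;> push_cast <;> linarith
    push Not at d2
    by_cases d3 : R 0 + 6 ≤ R 3 + 6 * (N 0 + N 1 + N 2)
    · refine A.disj 0 3 (Or.inr (Or.inl rfl)) 1 (N 0 + N 1 + N 2) (R 0 + 6) ?_ ?_ ?_ ?_ <;>
        push_cast <;> linarith
    push Not at d3
    by_cases d4 : R 0 + 6 ≤ R 4 + 6 * (N 0 + N 1 + N 2 + N 3)
    · refine A.disj 0 4 (Or.inr (Or.inr rfl)) 1 (N 0 + N 1 + N 2 + N 3) (R 0 + 6) ?_ ?_ ?_ ?_ <;>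
        push_cast <;> linarith
    push Not at d4
    by_cases d5 : R 0 + 6 ≤ R 5 + 6 * (N 0 + N 1 + N 2 + N 3 + N 4)
    · refine A.disj 5 1 (Or.inl rfl) (N 0 + N 1 + N 2 + N 3 + N 4) (N 0 + 1) (R 0 + 6)
        ?_ ?_ ?_ ?_ <;> push_cast <;> linarith
    push Not at d5
    linarith
  have hK' : (N 0 : ℝ) + N 1 + N 2 + N 3 + N 4 + N 5 = 1 := by exact_mod_cast hK
  obtain ⟨off, hoff⟩ : ∃ off : Fin 6 → ℤ, off = ![0, N 0, N 0 + N 1, N 0 + N 1 + N 2,
    N 0 + N 1 + N 2 + N 3, N 0 + N 1 + N 2 + N 3 + N 4] := ⟨_, rfl⟩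
  have o0 : off 0 = 0 := by rw [hoff]; rfl
  have o1 : off 1 = N 0 := by rw [hoff]; rfl
  have o2 : off 2 = N 0 + N 1 := by rw [hoff]; rfl
  have o3 : off 3 = N 0 + N 1 + N 2 := by rw [hoff]; rfl
  have o4 : off 4 = N 0 + N 1 + N 2 + N 3 := by rw [hoff]; rfl
  have o5 : off 5 = N 0 + N 1 + N 2 + N 3 + N 4 := by rw [hoff]; rfl
  obtain ⟨b, hb⟩ : ∃ b : ℤ → ℝ, ∀ i, b i = L (ix448 i) + 6 * ((off (ix448 i) + i / 6 : ℤ) : ℝ) :=
    ⟨_, fun _ => rfl⟩
  have hbr : ∀ (q : ℤ) (r : ℕ) (hr : r < 6), b (6 * q + r) =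
      L ⟨r, hr⟩ + 6 * ((off ⟨r, hr⟩ + q : ℤ) : ℝ) := by
    intro q r hr
    rw [hb, ix_of448 q hr]
    have : (6 * q + (r : ℤ)) / 6 = q := by omega
    rw [this]
  have B0 : ∀ q : ℤ, b (6 * q) = L 0 + 6 * q := by
    intro q
    have := hbr q 0 (by norm_num)
    rw [show (⟨0, by norm_num⟩ : Fin 6) = 0 from rfl, o0] at this
    push_cast at this
    rw [add_zero, zero_add] at this
    exact this
  have B1 : ∀ q : ℤ, b (6 * q + 1) = L 1 + 6 * (N 0 + q) := by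
    intro q
    have := hbr q 1 (by norm_num)
    rw [show (⟨1, by norm_num⟩ : Fin 6) = 1 from rfl, o1] at this
    push_cast at this
    exact this
  have B2 : ∀ q : ℤ, b (6 * q + 2) = L 2 + 6 * (N 0 + N 1 + q) := by
    intro q
    have := hbr q 2 (by norm_num)
    rw [show (⟨2, by norm_num⟩ : Fin 6) = 2 from rfl, o2] at this
    push_cast at this
    exact this
  have B3 : ∀ q : ℤ, b (6 * q + 3) = L 3 + 6 * (N 0 + N 1 + N 2 + q) := by
    intro q
    have := hbr q 3 (by norm_num)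
    rw [show (⟨3, by norm_num⟩ : Fin 6) = 3 from rfl, o3] at this
    push_cast at this
    exact this
  have B4 : ∀ q : ℤ, b (6 * q + 4) = L 4 + 6 * (N 0 + N 1 + N 2 + N 3 + q) := by
    intro q
    have := hbr q 4 (by norm_num)
    rw [show (⟨4, by norm_num⟩ : Fin 6) = 4 from rfl, o4] at this
    push_cast at this
    exact this
  have B5 : ∀ q : ℤ, b (6 * q + 5) = L 5 + 6 * (N 0 + N 1 + N 2 + N 3 + N 4 + q) := by
    intro q
    have := hbr q 5 (by norm_num)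
    rw [show (⟨5, by norm_num⟩ : Fin 6) = 5 from rfl, o5] at this
    push_cast at this
    exact this
  have I : ∀ (q : ℤ) (r : ℕ) (hr : r < 6), ix448 (6 * q + r) = ⟨r, hr⟩ := fun q r hr =>
    ix_of448 q hr
  have hdiv : ∀ i : ℤ, ∃ q : ℤ, i = 6 * q ∨ i = 6 * q + 1 ∨ i = 6 * q + 2 ∨ i = 6 * q + 3 ∨
      i = 6 * q + 4 ∨ i = 6 * q + 5 := fun i => ⟨i / 6, by omega⟩
  have key : ∀ i, b i ≤ b (i + 1) ∧ ∃ n : ℤ, b i = L (ix448 i) + 6 * n ∧
      b (i + 1) ≤ R (ix448 i) + 6 * n := by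
    intro i
    obtain ⟨q, h | h | h | h | h | h⟩ := hdiv i
    · have e : ix448 i = 0 := by rw [h]; have := I q 0 (by norm_num); simpa using this
      rw [e, h, B0, B1]
      exact ⟨by push_cast; linarith, q, rfl, by push_cast; linarith⟩
    · have e : ix448 i = 1 := by rw [h]; exact I q 1 (by norm_num)
      rw [e, h, show 6 * q + 1 + 1 = 6 * q + 2 by ring, B1, B2]
      exact ⟨by push_cast; linarith, N 0 + q, by push_cast; ring, by push_cast; linarith⟩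
    · have e : ix448 i = 2 := by rw [h]; exact I q 2 (by norm_num)
      rw [e, h, show 6 * q + 2 + 1 = 6 * q + 3 by ring, B2, B3]
      exact ⟨by push_cast; linarith, N 0 + N 1 + q, by push_cast; ring, by push_cast; linarith⟩
    · have e : ix448 i = 3 := by rw [h]; exact I q 3 (by norm_num)
      rw [e, h, show 6 * q + 3 + 1 = 6 * q + 4 by ring, B3, B4]
      exact ⟨by push_cast; linarith, N 0 + N 1 + N 2 + q, by push_cast; ring,
        by push_cast; linarith⟩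
    · have e : ix448 i = 4 := by rw [h]; exact I q 4 (by norm_num)
      rw [e, h, show 6 * q + 4 + 1 = 6 * q + 5 by ring, B4, B5]
      exact ⟨by push_cast; linarith, N 0 + N 1 + N 2 + N 3 + q, by push_cast; ring,
        by push_cast; linarith⟩
    · have e : ix448 i = 5 := by rw [h]; exact I q 5 (by norm_num)
      rw [e, h, show 6 * q + 5 + 1 = 6 * (q + 1) by ring, B5, B0]
      exact ⟨by push_cast; linarith, N 0 + N 1 + N 2 + N 3 + N 4 + q, by push_cast; ring,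
        by push_cast; linarith⟩
  refine ⟨b, fun i => (key i).1, fun i => ?_, fun i => (key i).2⟩
  have e1 : ix448 (i + 6) = ix448 i := by
    unfold ix448
    apply Fin.ext
    show ((i + 6) % 6).toNat = (i % 6).toNat
    omega
  rw [hb, hb, e1, show (i + 6) / 6 = i / 6 + 1 by omega]
  push_cast
  ring

/-- **Six arcs with the nerve of a hexagon are tiles**, in the order of the numbering or in the
reversed order. -/
theorem Arcs448.exists_tiles (A : Arcs448 L R) :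
    (∃ b, Tile448 L R ix448 b) ∨ ∃ b, Tile448 L R (fun i => -ix448 i) b := by
  rcases A.succ' 0 with h | h
  · exact Or.inl (A.tiles_fwd (A.fwd h))
  · right
    have A' := A.rev
    have h' : ∃ n : ℤ, (fun i => L (-i)) (0 + 1) + 6 * n ≤ (fun i => R (-i)) 0 ∧
        (fun i => R (-i)) 0 < (fun i => R (-i)) (0 + 1) + 6 * n := h
    obtain ⟨b, hb⟩ := A'.tiles_fwd (A'.fwd h')
    exact ⟨b, hb.mono, hb.per, hb.left⟩

end Vale.Agent.P032.H448
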