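import Vale.Agent.P032.H448.HDWin
import Vale.Agent.P032.H259.TameWin

/-!
# P032: the honest directions of a tame centre cover the circle

`Front448 T U z` (front rule): a point `x` near `z` with the colour `c` which is not connected to
`z` in `{c ∈ T}` is in a set `U f`, `f ≠ c`, and the segment from `z` to `x` contains a point with
the palette `{c, f}`.

`cov448` : the front rule and a pair letter for every colour, all colours attached: every direction
is an honest direction (`HD U z i`) of some colour.  `tame_front448` : then `z` has windows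
(`WinData`) both ends of which are honest directions.
-/

open Set Filter Topology Metric

noncomputable section

namespace Vale.Agent.P032.H448

open Vale.Agent.P032.Six Vale.Agent.P032.Sweep Vale.Agent.P032.S5.H767 Vale.Agent.P032.S5.H122
  Vale.Agent.P032.H429 Vale.Agent.P032.H187 Vale.Agent.P032.H158 Vale.Agent.P032.H266
  Vale.Agent.P032.H259

variable {U : Fin 6 → Set ℂ} {T : ℂ → Set (Fin 6)} {z : ℂ} {i : Fin 6}

/-- the front rule -/
def Front448 (T : ℂ → Set (Fin 6)) (U : Fin 6 → Set ℂ) (z : ℂ) : Prop :=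
  ∀ c : Fin 6, ∃ C : Set ℂ, IsPreconnected C ∧ z ∈ C ∧ (∀ x ∈ C, c ∈ T x) ∧ ∃ δ > 0,
    ∀ x ∈ ball z δ, c ∈ T x → x ∉ C → ∃ f, f ≠ c ∧ x ∈ U f ∧
      ∃ t : ℝ, 0 < t ∧ t ≤ 1 ∧ T (z + t * (x - z)) = {c, f}

theorem ip_pt448 (z : ℂ) (s t : ℝ) : ip (cis s) (z - pt z t) = -Real.cos (s - t * (Real.pi / 3)) := by
  have e4 : z - pt z t = -(pt z t - z) := by ring
  rw [e4, pt_sub158, ← ip_cis429]
  unfold ip
  simp
  ring

/-- the directions of a continuum at `z` are honest -/
theorem hd_of_comp (h : Irr U T) {C : Set ℂ} (hC : IsPreconnected C) (hz : z ∈ C)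
    (hCi : ∀ x ∈ C, i ∈ T x) {x : ℝ} (hf : ∃ᶠ y in nap z (cis (x * (Real.pi / 3))), y ∈ C) :
    x ∈ HD U z i := by
  intro t
  have e2 : (x - t) * (Real.pi / 3) = x * (Real.pi / 3) - t * (Real.pi / 3) := by ring
  have e3 := ip_pt448 z (x * (Real.pi / 3)) t
  rw [e2]
  constructor
  · intro ho
    by_contra hcon
    push Not at hcon
    obtain ⟨y, hy, hy'⟩ := (hf.and_eventually (nap_near (y := z) (d := cis (x * (Real.pi / 3)))
      (v := pt z t) (by rw [dist_comm]; exact dist_pt158 z t) (by rw [e3]; linarith))).exists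
    exact absurd (ho.cont h.mx hC hz (fun x hx => h.sub x (hCi x hx)) y hy) (not_le.2 hy')
  · intro ho
    by_contra hcon
    push Not at hcon
    obtain ⟨y, hy, hy'⟩ := (hf.and_eventually (nap_far (y := z) (d := cis (x * (Real.pi / 3)))
      (v := pt z t) (by rw [dist_comm]; exact dist_pt158 z t) (by rw [e3]; linarith))).exists
    exact absurd (ho.cont h.mx hC hz (fun x hx => h.sub x (hCi x hx)) y hy) (not_le.2 hy')

/-- the directions of a colour of a pair letter with an attached partner are strictly on one side -/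
theorem pair_side (h : Irr U T) {c d : Fin 6} (hA : Att T z d) {s : ℝ}
    (hs : s ∈ Lc T z) (hT : T (pt z s) = {c, d}) :
    (∀ x : ℝ, x * (Real.pi / 3) ∈ Dir429 T z c → 0 < Real.cos ((x - s) * (Real.pi / 3))) ∨
      (∀ x : ℝ, x * (Real.pi / 3) ∈ Dir429 T z c → Real.cos ((x - s) * (Real.pi / 3)) < 0) := by
  have hmap : ∀ m : ℂ, Tendsto (fun w : ℂ => w + (pt z s - z)) (nap z m) (𝓝 (pt z s)) := by
    intro m
    have h1 : Continuous fun w : ℂ => w + (pt z s - z) := by fun_prop
    have h2 := h1.tendsto z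
    simp only [add_sub_cancel] at h2
    exact h2.mono_left (nap_le z m)
  -- the partner is at the translated points
  have hpart : ∀ w, c ∈ T w → T (w + (pt z s - z)) ⊆ T (pt z s) → d ∈ T (w + (pt z s - z)) := by
    intro w hw hsub
    by_contra hcon
    have h1 : T (w + (pt z s - z)) ⊆ {c} := by
      intro m hm
      have h2 := hsub hm
      rw [hT] at h2
      rcases h2 with h3 | h3
      · exact h3
      · exact absurd (h3 ▸ hm) hcon
    exact h.mx.notMem' (h.mem_of_single h1) (dist_shift429 (dist_pt z s)) (h.sub w hw)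
  have hdist : ∀ w, dist (w + (pt z s - z)) z = dist w (pt z (s + 3)) := by
    intro w
    have e : pt z (s + 3) = z - (pt z s - z) := by
      have e1 : (s + 3) * (Real.pi / 3) = s * (Real.pi / 3) + Real.pi := by ring
      rw [pt_sub158]
      have e2 := pt_sub158 z (s + 3)
      rw [e1, cis_add_pi326] at e2
      linear_combination e2
    rw [e, dist_eq_norm, dist_eq_norm]
    congr 1
    ring
  have e3 : ∀ x : ℝ, ip (cis (x * (Real.pi / 3))) (z - pt z (s + 3)) =
      Real.cos ((x - s) * (Real.pi / 3)) := by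
    intro x
    rw [ip_pt448]
    have e1 : x * (Real.pi / 3) - (s + 3) * (Real.pi / 3) = (x - s) * (Real.pi / 3) - Real.pi := by
      ring
    rw [e1, Real.cos_sub_pi, neg_neg]
  have hc : c ∈ T (pt z s) := by rw [hT]; simp
  have hd : d ∈ T (pt z s) := by rw [hT]; simp
  rcases side_hd h hA hs hd with h1 | h1
  · right
    intro x hx
    refine lt_of_le_of_ne ?_ (dir_perp h hs hc hx)
    by_contra hcon
    push Not at hcon
    refine h1.1 (outN_of h ?_)
    have h2 : ∃ᶠ w in nap z (cis (x * (Real.pi / 3))), c ∈ T w := hx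
    have h3 := (h2.and_eventually ((nap_far (y := z) (d := cis (x * (Real.pi / 3)))
      (v := pt z (s + 3)) (by rw [dist_comm]; exact dist_pt158 z _) (by rw [e3]; exact hcon)).and
      ((nap_le z _) (h.shift429 (g := pt z s)))))
    refine (hmap _).frequently (h3.mono fun w hw => ⟨hpart w hw.1 hw.2.2, ?_⟩)
    rw [hdist]
    exact hw.2.1
  · left
    intro x hx
    refine lt_of_le_of_ne ?_ (dir_perp h hs hc hx).symm
    by_contra hcon
    push Not at hcon
    refine h1.1 (innN_of h ?_)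
    have h2 : ∃ᶠ w in nap z (cis (x * (Real.pi / 3))), c ∈ T w := hx
    have h3 := (h2.and_eventually ((nap_near (y := z) (d := cis (x * (Real.pi / 3)))
      (v := pt z (s + 3)) (by rw [dist_comm]; exact dist_pt158 z _) (by rw [e3]; exact hcon)).and
      ((nap_le z _) (h.shift429 (g := pt z s)))))
    refine (hmap _).frequently (h3.mono fun w hw => ⟨hpart w hw.1 hw.2.2, ?_⟩)
    rw [hdist]
    exact hw.2.1

/-- no colour in opposite directions -/
theorem anti_dir (h : Irr U T) {c d : Fin 6} (hA : Att T z d) {s : ℝ}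
    (hs : s ∈ Lc T z) (hT : T (pt z s) = {c, d}) {x : ℝ} (h1 : x * (Real.pi / 3) ∈ Dir429 T z c)
    (h2 : (x + 3) * (Real.pi / 3) ∈ Dir429 T z c) : False := by
  have e : (x + 3 - s) * (Real.pi / 3) = (x - s) * (Real.pi / 3) + Real.pi := by ring
  rcases pair_side h hA hs hT with h3 | h3
  · have h4 := h3 _ h1
    have h5 := h3 _ h2
    rw [e, Real.cos_add_pi] at h5
    linarith
  · have h4 := h3 _ h1
    have h5 := h3 _ h2
    rw [e, Real.cos_add_pi] at h5
    linarith

/-- the hub of a small set of colours -/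
theorem exists_hub448 {A A' P0 P1 P2 P3 : Set (Fin 6)} (hA : A.Nonempty) (hA' : A'.Nonempty)
    (hAA : Disjoint A A') (h0 : Disjoint A P0) (h0' : Disjoint A' P0) (h3 : Disjoint A P3)
    (h3' : Disjoint A' P3) (h01 : Disjoint P0 P1) (h12 : Disjoint P1 P2) (h23 : Disjoint P2 P3)
    (n0 : 2 ≤ P0.ncard) (n1 : 2 ≤ P1.ncard) (n2 : 2 ≤ P2.ncard) (n3 : 2 ≤ P3.ncard) :
    ∃ c ∈ A, ∀ a ∈ A, a ≠ c → ∀ b ∈ A, b ≠ c → b ≠ a → P1 ⊆ {a, b} ∨ P2 ⊆ {a, b} := by
  have h6 : ∀ S : Set (Fin 6), S.ncard ≤ 6 := by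
    intro S
    have := Set.ncard_le_card S
    simpa using this
  have m : 1 ≤ A.ncard := (Set.ncard_pos (Set.toFinite _)).2 hA
  have m' : 1 ≤ A'.ncard := (Set.ncard_pos (Set.toFinite _)).2 hA'
  have u1 : (A ∪ A').ncard = A.ncard + A'.ncard := Set.ncard_union_eq hAA
  have u2 : ((A ∪ A') ∪ P0).ncard = (A ∪ A').ncard + P0.ncard :=
    Set.ncard_union_eq (Set.disjoint_union_left.2 ⟨h0, h0'⟩)
  have u3 : ((A ∪ A') ∪ P3).ncard = (A ∪ A').ncard + P3.ncard :=
    Set.ncard_union_eq (Set.disjoint_union_left.2 ⟨h3, h3'⟩)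
  have k2 := h6 ((A ∪ A') ∪ P0)
  have k3 := h6 ((A ∪ A') ∪ P3)
  by_cases hA2 : A.ncard ≤ 2
  · obtain ⟨c, hc⟩ := hA
    refine ⟨c, hc, fun a ha hac b hb hbc hba => ?_⟩
    exfalso
    have h7 : ({a, b, c} : Set (Fin 6)).ncard ≤ A.ncard := by
      refine Set.ncard_le_ncard ?_ (Set.toFinite _)
      rintro x (rfl | rfl | rfl)
      · exact ha
      · exact hb
      · exact hc
    have h8 : ({a, b, c} : Set (Fin 6)).ncard = 3 :=
      Set.ncard_eq_three.2 ⟨a, b, c, hba.symm, hac, hbc, rfl⟩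
    omega
  · have e0 : (A ∪ A') ∪ P0 = univ := by
      refine Set.eq_of_subset_of_ncard_le (subset_univ _) ?_ (Set.toFinite _)
      have := h6 univ
      omega
    have e3 : (A ∪ A') ∪ P3 = univ := by
      refine Set.eq_of_subset_of_ncard_le (subset_univ _) ?_ (Set.toFinite _)
      have := h6 univ
      omega
    have s1 : P1 ⊆ A ∪ A' := by
      intro x hx
      have : x ∈ (A ∪ A') ∪ P0 := by rw [e0]; trivial
      rcases this with h7 | h7
      · exact h7
      · exact absurd hx (Set.disjoint_left.1 h01 h7)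
    have s2 : P2 ⊆ A ∪ A' := by
      intro x hx
      have : x ∈ (A ∪ A') ∪ P3 := by rw [e3]; trivial
      rcases this with h7 | h7
      · exact h7
      · exact absurd h7 (Set.disjoint_left.1 h23 hx)
    have u4 : (P1 ∪ P2).ncard = P1.ncard + P2.ncard := Set.ncard_union_eq h12
    have u5 : (P1 ∪ P2).ncard ≤ (A ∪ A').ncard :=
      Set.ncard_le_ncard (union_subset s1 s2) (Set.toFinite _)
    -- the single colour of `A'`
    have hA1 : A'.ncard = 1 := by omega
    obtain ⟨w, hw⟩ := Set.ncard_eq_one.1 hA1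
    have hQ : ∀ Q : Set (Fin 6), Q ⊆ A ∪ A' → w ∉ Q → Q.ncard = 2 →
        ∃ c ∈ A, ∀ a ∈ A, a ≠ c → ∀ b ∈ A, b ≠ c → b ≠ a → Q ⊆ {a, b} := by
      intro Q hQ1 hQ2 hQ3
      have hQA : Q ⊆ A := by
        intro x hx
        rcases hQ1 hx with h7 | h7
        · exact h7
        · rw [hw, mem_singleton_iff] at h7
          exact absurd (h7 ▸ hx) hQ2
      have h7 : (A \ Q).ncard = 1 := by
        have := Set.ncard_sdiff_add_ncard_of_subset hQA (Set.toFinite _)
        omega
      obtain ⟨c, hc⟩ := Set.ncard_eq_one.1 h7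
      have hcA : c ∈ A \ Q := by rw [hc]; rfl
      refine ⟨c, hcA.1, fun a ha hac b hb hbc hba => ?_⟩
      have hin : ∀ x ∈ A, x ≠ c → x ∈ Q := by
        intro x hx hxc
        by_contra hcon
        have : x ∈ A \ Q := ⟨hx, hcon⟩
        rw [hc] at this
        exact hxc this
      have h8 : ({a, b} : Set (Fin 6)) = Q := by
        refine Set.eq_of_subset_of_ncard_le ?_ ?_ (Set.toFinite _)
        · rintro x (rfl | rfl)
          · exact hin _ ha hac
          · exact hin _ hb hbc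
        · rw [Set.ncard_pair hba.symm, hQ3]
      rw [h8]
    by_cases hw1 : w ∈ P1
    · have hw2 : w ∉ P2 := Set.disjoint_left.1 h12 hw1
      obtain ⟨c, hc, h7⟩ := hQ P2 s2 hw2 (by omega)
      exact ⟨c, hc, fun a ha hac b hb hbc hba => Or.inr (h7 a ha hac b hb hbc hba)⟩
    · obtain ⟨c, hc, h7⟩ := hQ P1 s1 hw1 (by omega)
      exact ⟨c, hc, fun a ha hac b hb hbc hba => Or.inl (h7 a ha hac b hb hbc hba)⟩

/-- **(COV)** every direction is an honest direction of some colour -/
theorem cov448 (h : Irr U T) (hz : ∀ i, i ∈ T z) (hA : ∀ i, Att T z i)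
    (hp : ∀ c, ∃ d, ∃ s ∈ Lc T z, T (pt z s) = {c, d}) (hF : Front448 T U z) (s : ℝ) :
    ∃ i, s ∈ HD U z i := by
  have hpi := Real.pi_pos
  by_contra hcon
  push Not at hcon
  -- a generic direction without honest colours
  have hO : IsOpen (⋂ i, (HD U z i)ᶜ) := isOpen_iInter_of_finite fun i => hd_closed.isOpen_compl
  have hcont : Continuous fun u : ℝ => u - 3 / 2 := by fun_prop
  have hD : Dense (WinData.L0 T z) := by rw [WinData.L0_eq]; exact Lall_dense h
  obtain ⟨u, hu1, hu2⟩ := hD.inter_open_nonempty _ (hO.preimage hcont)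
    ⟨s + 3 / 2, by
      show s + 3 / 2 - 3 / 2 ∈ ⋂ i, (HD U z i)ᶜ
      rw [add_sub_cancel_right]
      exact mem_iInter.2 fun i => hcon i⟩
  set x := u - 3 / 2 with hx
  have hxn : ∀ i, x ∉ HD U z i := fun i => mem_iInter.1 hu1 i
  have l0 : u ∈ Lc T z := by simpa using hu2 0
  have l1 : u + 1 ∈ Lc T z := by simpa using hu2 1
  have l2 : u + 2 ∈ Lc T z := by simpa using hu2 2
  have l3 : u + 3 ∈ Lc T z := by simpa using hu2 3
  have d01 := dj_sixty h l0
  have d12 := dj_sixty h l1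
  have d23 := dj_sixty h l2
  have e12 : u + 1 + 1 = u + 2 := by ring
  have e23 : u + 2 + 1 = u + 3 := by ring
  rw [e12] at d12
  rw [e23] at d23
  have n0 := (two_out h l0 fun i _ => hz i).1
  have n1 := (two_out h l1 fun i _ => hz i).1
  have n2 := (two_out h l2 fun i _ => hz i).1
  have n3 := (two_out h l3 fun i _ => hz i).1
  -- the colours of the two directions
  set A : Set (Fin 6) := tau T z (cis (x * (Real.pi / 3))) with hAdef
  set A' : Set (Fin 6) := tau T z (cis ((x + 3) * (Real.pi / 3))) with hA'def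
  have hAd : ∀ c, c ∈ A → x * (Real.pi / 3) ∈ Dir429 T z c := fun c hc => hc
  have hAd' : ∀ c, c ∈ A' → (x + 3) * (Real.pi / 3) ∈ Dir429 T z c := fun c hc => hc
  have hcos : ∀ y v : ℝ, (y - v) * (Real.pi / 3) = Real.pi / 2 ∨
      (y - v) * (Real.pi / 3) = -(Real.pi / 2) ∨ (y - v) * (Real.pi / 3) = -(Real.pi / 2) - Real.pi →
      Real.cos ((y - v) * (Real.pi / 3)) = 0 := by
    rintro y v (h1 | h1 | h1)
    · rw [h1, Real.cos_pi_div_two]
    · rw [h1, Real.cos_neg, Real.cos_pi_div_two]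
    · rw [h1, Real.cos_sub_pi, Real.cos_neg, Real.cos_pi_div_two, neg_zero]
  have q0 : Disjoint A (T (pt z u)) := Set.disjoint_left.2 fun c hc hc' =>
    dir_perp h l0 hc' (hAd c hc) (hcos _ _ (Or.inr (Or.inl (by rw [hx]; ring))))
  have q3 : Disjoint A (T (pt z (u + 3))) := Set.disjoint_left.2 fun c hc hc' =>
    dir_perp h l3 hc' (hAd c hc) (hcos _ _ (Or.inr (Or.inr (by rw [hx]; ring))))
  have q0' : Disjoint A' (T (pt z u)) := Set.disjoint_left.2 fun c hc hc' =>
    dir_perp h l0 hc' (hAd' c hc) (hcos _ _ (Or.inl (by rw [hx]; ring)))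
  have q3' : Disjoint A' (T (pt z (u + 3))) := Set.disjoint_left.2 fun c hc hc' =>
    dir_perp h l3 hc' (hAd' c hc) (hcos _ _ (Or.inr (Or.inl (by rw [hx]; ring))))
  have qA : Disjoint A A' := Set.disjoint_left.2 fun c hc hc' => by
    obtain ⟨d, s', hs', hT⟩ := hp c
    exact anti_dir h (hA d) hs' hT (hAd c hc) (hAd' c hc')
  obtain ⟨c, hcA, hub⟩ := exists_hub448 (h.tau_nonempty z _) (h.tau_nonempty z _) qA q0 q0' q3 q3'
    d01 d12 d23 n0 n1 n2 n3
  -- the front rule in the sector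
  have hfront : ∀ j, ∀ᶠ y in nap z (cis (x * (Real.pi / 3))), j ∈ T y → ∃ f, f ≠ j ∧ y ∈ U f ∧
      ∃ t : ℝ, 0 < t ∧ t ≤ 1 ∧ T (z + t * (y - z)) = {j, f} := by
    intro j
    obtain ⟨C, hC, hzC, hCj, δ, hδ, hfr⟩ := hF j
    have h1 : ∀ᶠ y in nap z (cis (x * (Real.pi / 3))), y ∉ C := by
      by_contra hcon'
      exact hxn j (hd_of_comp h hC hzC hCj (by
        rw [Filter.not_eventually] at hcon'
        exact hcon'.mono fun y hy => not_not.1 hy))
    filter_upwards [h1, (nap_le z _) (ball_mem_nhds z hδ)] with y hy1 hy2 hy3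
    exact hfr y hy2 hy3 hy1
  have hlet : ∀ g, dist g z = 1 → ∀ᶠ y in nap z (cis (x * (Real.pi / 3))), ∀ a b,
      T g ⊆ {a, b} → T y ≠ {a, b} := by
    intro g hg
    filter_upwards [(nap_le z _) (h.shift429 (g := g))] with y hy a b hab heq
    obtain ⟨t, ht, htv⟩ := h.not_sub' (x := y) (y := y + (g - z)) (dist_shift429 hg) (by
      rw [heq]
      exact (Set.ncard_insert_le _ _).trans (by rw [Set.ncard_singleton]; norm_num))
    exact htv (by rw [heq]; exact hab (hy ht))
  have hev := (eventually_all.2 hfront).and ((tau_ev T z (cis (x * (Real.pi / 3)))).and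
    ((hlet _ (dist_pt z (u + 1))).and (hlet _ (dist_pt z (u + 2)))))
  obtain ⟨δ, hδ, hdel⟩ := nap_iff.1 hev
  have hUc : ∀ᶠ y in nap z (cis (x * (Real.pi / 3))), y ∈ U c := by
    refine nap_iff.2 ⟨δ, hδ, fun s' r hs' hr0 hr => ?_⟩
    obtain ⟨h1, h2, -, -⟩ := hdel s' r hs' hr0 hr
    by_cases hj : ∃ j ∈ T (z + r * (cis (x * (Real.pi / 3)) * cis s')), j ≠ c
    · obtain ⟨j, hj, hjc⟩ := hj
      obtain ⟨f, hfj, hfU, t, ht0, ht1, hT⟩ := h1 j hj
      have e : z + (t : ℂ) * (z + r * (cis (x * (Real.pi / 3)) * cis s') - z) =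
          z + ((t * r : ℝ) : ℂ) * (cis (x * (Real.pi / 3)) * cis s') := by
        push_cast
        ring
      rw [e] at hT
      obtain ⟨-, h3, h4, h5⟩ := hdel s' (t * r) hs' (by positivity) (by nlinarith)
      rw [hT] at h3 h4 h5
      have hjA : j ∈ A := h3 (by simp)
      have hfA : f ∈ A := h3 (by simp)
      by_cases hfc : f = c
      · rw [← hfc]; exact hfU
      · exfalso
        rcases hub j hjA hjc f hfA hfc hfj with h6 | h6
        · exact h4 j f h6 rfl
        · exact h5 j f h6 rfl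
    · push Not at hj
      exact h.mem_of_single fun j hj' => hj j hj'
  refine hxn c (HD_of_Dr h.mx (subset_closure ?_))
  exact ray_of_nap hUc

/-- **windows with honest ends from the front rule** -/
theorem tame_front448 (h : Irr U T) (hmin : Mh259 U T) (hz : ∀ i, i ∈ T z)
    (ht : ∀ᶠ w in 𝓝[≠] z, (T w).ncard ≤ 2)
    (hns : ∀ i, ∃ s ∈ Lc T z, i ∈ T (pt z s) ∧ (T (pt z s)).ncard = 2) (hF : Front448 T U z) :
    ∃ L R : Fin 6 → ℝ, WinData T z L R ∧ (∀ i, L i ∈ HD U z i ∧ R i ∈ HD U z i) ∧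
      ∀ i, ∀ s ∈ HD U z i, ∃ n : ℤ, L i + 6 * n ≤ s ∧ s ≤ R i + 6 * n := by
  have h6 := ncard_all259 hz
  have hatt : ∀ i, Att T z i := fun i => tame_att259 h hmin (by omega) ht (hz i)
  refine win_of_hd h hatt (fun i => ?_) (cov448 h hz hatt (fun c => ?_) hF)
  · obtain ⟨s, hs, hi, -⟩ := hns i
    exact ⟨s, hs, hi⟩
  · obtain ⟨s, hs, hi, h2⟩ := hns c
    obtain ⟨a, b, hab, hT⟩ := Set.ncard_eq_two.1 h2
    rw [hT] at hi
    rcases hi with rfl | hi
    · exact ⟨b, s, hs, hT⟩
    · rw [mem_singleton_iff] at hi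
      subst hi
      exact ⟨a, s, hs, by rw [hT, pair_comm]⟩

end Vale.Agent.P032.H448
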