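import Vale.Agent.P032.H448.HD
import Vale.Agent.P032.H728.Static

/-!
# P032: every generic column is one of the 57, for windows with honest ends
-/

open Set Filter Topology Metric

noncomputable section

namespace Vale.Agent.P032.H448

open Vale.Agent.P032.Six Vale.Agent.P032.Sweep Vale.Agent.P032.S5.H767 Vale.Agent.P032.S5.H122
  Vale.Agent.P032.H429 Vale.Agent.P032.H728
open Vale.Agent.P032.H158 (OkSt Step XCRel WStep ok_st)
open Vale.Agent.P032.H266 (HD HD_of_Dr)

variable {U : Fin 6 → Set ℂ} {T : ℂ → Set (Fin 6)} {z : ℂ} {L R : Fin 6 → ℝ}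

/-- **Every generic column is one of the 57**, up to turns and names. -/
theorem static57_gen_hd (h : Irr U T) (w : WinData T z L R)
    (hD : ∀ i, L i ∈ HD U z i ∧ R i ∈ HD U z i) {t : ℝ}
    (ht : t ∈ WinData.G T z L R) :
    ∃ k < 6, ∃ σ : Equiv.Perm (Fin 6), ∃ B ∈ L57,
      H314.Hold T z L R (ren σ (clw B)) (t + (k : ℕ)) := by
  have h1 := okC_gen_hd (Sd := All) (E := fun _ _ => True) h w (fun i _ => hD i)
    (fun _ _ _ _ _ => trivial) ht
  obtain ⟨k, hk, σ, B, hB, h2⟩ := static57 h1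
  refine ⟨k, hk, σ, B, hB, ?_⟩
  rw [← h2]
  exact hold_iter (hold_gen w ht) k

/-- **The end**: if none of the 57 columns is held at a generic time then there is no such
centre. -/
theorem false_of_cols_hd (h : Irr U T) (w : WinData T z L R)
    (hD : ∀ i, L i ∈ HD U z i ∧ R i ∈ HD U z i)
    (kill : ∀ B ∈ L57, ∀ σ : Equiv.Perm (Fin 6), ∀ u ∈ WinData.G T z L R,
      ¬ H314.Hold T z L R (ren σ (clw B)) u) : False := by
  obtain ⟨t, ht⟩ := (WinData.G_dense h z L R).nonempty
  obtain ⟨k, -, σ, B, hB, h2⟩ := static57_gen_hd h w hD ht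
  exact kill B hB σ _ (G_iter ht k) h2

end Vale.Agent.P032.H448
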