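import Vale.Agent.P032.H259.Prism2
import Vale.Agent.P032.H266.FamZ

/-!
# P032: the honest directions are the windows

If all colours are attached at `z` (`Att T z i`) and carried by `S(z)`, then the sets `HD U z i` of
honest directions are closed arcs of length less than 180 degrees, strictly in front of or strictly
behind every slot with a constant palette which contains `i`.  So they are windows (`WinData`) with
honest ends as soon as they cover the circle (`win_of_hd`).  The palettes may have three colours.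
-/

open Set Filter Topology Metric

noncomputable section

namespace Vale.Agent.P032.H448

open Vale.Agent.P032.Six Vale.Agent.P032.Sweep Vale.Agent.P032.S5.H767 Vale.Agent.P032.S5.H122
  Vale.Agent.P032.H429 Vale.Agent.P032.H187 Vale.Agent.P032.H158 Vale.Agent.P032.H266
  Vale.Agent.P032.H259

variable {U : Fin 6 → Set ℂ} {T : ℂ → Set (Fin 6)} {z : ℂ} {i : Fin 6}

theorem hd_closed : IsClosed (HD U z i) := by
  have e : HD U z i = ⋂ t : ℝ, {x | (OutN U z (pt z t) i → Real.cos ((x - t) * (Real.pi / 3)) ≤ 0) ∧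
      (InnN U z (pt z t) i → 0 ≤ Real.cos ((x - t) * (Real.pi / 3)))} := by
    ext x
    simp only [HD, mem_iInter, mem_ofPred_eq]
  rw [e]
  refine isClosed_iInter fun t => ?_
  have h1 : IsClosed {x : ℝ | OutN U z (pt z t) i → Real.cos ((x - t) * (Real.pi / 3)) ≤ 0} := by
    by_cases ho : OutN U z (pt z t) i
    · simp only [ho, true_imp_iff]
      exact isClosed_le (by fun_prop) continuous_const
    · simp only [ho, false_imp_iff, ofPred_true]
      exact isClosed_univ
  have h2 : IsClosed {x : ℝ | InnN U z (pt z t) i → 0 ≤ Real.cos ((x - t) * (Real.pi / 3))} := by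
    by_cases ho : InnN U z (pt z t) i
    · simp only [ho, true_imp_iff]
      exact isClosed_le continuous_const (by fun_prop)
    · simp only [ho, false_imp_iff, ofPred_true]
      exact isClosed_univ
  exact h1.inter h2

theorem hd_int (x : ℝ) (n : ℤ) : x + 6 * n ∈ HD U z i ↔ x ∈ HD U z i := by
  have e : ∀ t : ℝ, Real.cos ((x + 6 * n - t) * (Real.pi / 3)) =
      Real.cos ((x - t) * (Real.pi / 3)) := by
    intro t
    have e1 : (x + 6 * n - t) * (Real.pi / 3) = (x - t) * (Real.pi / 3) + n * (2 * Real.pi) := by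
      ring
    rw [e1, Real.cos_add_int_mul_two_pi]
  unfold HD
  simp only [mem_ofPred_eq, e]

/-- directions of a colour of an arc are not perpendicular to the arc -/
theorem dir_perp (h : Irr U T) {s : ℝ} (hs : s ∈ Lc T z) (hx : i ∈ T (pt z s)) {x : ℝ}
    (hd : x * (Real.pi / 3) ∈ Dir429 T z i) : Real.cos ((x - s) * (Real.pi / 3)) ≠ 0 := by
  intro h0
  have hcar : Car U z (pt z s) i := by
    refine ⟨dist_pt z s, (Lc_circle hs).mono fun q hq => ?_⟩
    refine h.sub _ ?_
    rw [hq]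
    exact hx
  have e : pt z s - z = cis (s * (Real.pi / 3)) := by unfold pt; ring
  have h1 : Real.sin ((x - s) * (Real.pi / 3)) = 1 ∨ Real.sin ((x - s) * (Real.pi / 3)) = -1 := by
    have h2 := Real.sin_sq_add_cos_sq ((x - s) * (Real.pi / 3))
    rw [h0] at h2
    have h3 : (Real.sin ((x - s) * (Real.pi / 3)) - 1) *
        (Real.sin ((x - s) * (Real.pi / 3)) + 1) = 0 := by nlinarith
    rcases mul_eq_zero.1 h3 with h4 | h4
    · exact Or.inl (by linarith)
    · exact Or.inr (by linarith)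
  have e2 : x * (Real.pi / 3) = (x - s) * (Real.pi / 3) + s * (Real.pi / 3) := by ring
  have hm : cis (x * (Real.pi / 3)) = Complex.I * (pt z s - z) ∨
      cis (x * (Real.pi / 3)) = -(Complex.I * (pt z s - z)) := by
    rw [e]
    rcases h1 with h1 | h1
    · left
      apply Complex.ext
      · rw [cis_re, e2, Real.cos_add, h0, h1, Complex.mul_re, Complex.I_re, Complex.I_im, cis_re,
          cis_im]
      · rw [cis_im, e2, Real.sin_add, h0, h1, Complex.mul_im, Complex.I_re, Complex.I_im, cis_re,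
          cis_im]
        ring
    · right
      apply Complex.ext
      · rw [cis_re, e2, Real.cos_add, h0, h1, Complex.neg_re, Complex.mul_re, Complex.I_re,
          Complex.I_im, cis_re, cis_im]
        ring
      · rw [cis_im, e2, Real.sin_add, h0, h1, Complex.neg_im, Complex.mul_im, Complex.I_re,
          Complex.I_im, cis_re, cis_im]
        ring
  exact h.tau_avoid hcar hm hd

/-- `cos ≥ 0` near an angle makes it positive -/
theorem cos_strict {a s : ℝ} (hev : ∀ᶠ v in 𝓝 s, 0 ≤ Real.cos ((a - v) * (Real.pi / 3))) :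
    0 < Real.cos ((a - s) * (Real.pi / 3)) := by
  have hpi := Real.pi_pos
  have h0 : 0 ≤ Real.cos ((a - s) * (Real.pi / 3)) := hev.self_of_nhds
  refine lt_of_le_of_ne h0 fun h1 => ?_
  obtain ⟨δ, hδ, hb⟩ := Metric.eventually_nhds_iff.1 hev
  set d := min δ 1 / 2 with hd
  have hm : 0 < min δ 1 := lt_min hδ one_pos
  have hd0 : 0 < d := by positivity
  have hdδ : d < δ := by have := min_le_left δ 1; linarith
  have hd1 : d < 1 := by have := min_le_right δ 1; linarith
  have k1 := hb (y := s + d) (by rw [Real.dist_eq]; simp [abs_of_pos hd0, hdδ])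
  have k2 := hb (y := s - d) (by rw [Real.dist_eq]; simp [abs_of_pos hd0, hdδ])
  have e1 : (a - (s + d)) * (Real.pi / 3) = (a - s) * (Real.pi / 3) - d * (Real.pi / 3) := by ring
  have e2 : (a - (s - d)) * (Real.pi / 3) = (a - s) * (Real.pi / 3) + d * (Real.pi / 3) := by ring
  rw [e1, Real.cos_sub, ← h1] at k1
  rw [e2, Real.cos_add, ← h1] at k2
  have hs0 : 0 < Real.sin (d * (Real.pi / 3)) :=
    Real.sin_pos_of_pos_of_lt_pi (by positivity) (by nlinarith)
  have h3 : Real.sin ((a - s) * (Real.pi / 3)) = 0 := by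
    have g1 : 0 ≤ Real.sin ((a - s) * (Real.pi / 3)) := by
      by_contra hcon
      push Not at hcon
      nlinarith
    have g2 : Real.sin ((a - s) * (Real.pi / 3)) ≤ 0 := by
      by_contra hcon
      push Not at hcon
      nlinarith
    linarith
  have h4 := Real.sin_sq_add_cos_sq ((a - s) * (Real.pi / 3))
  rw [h3, ← h1] at h4
  norm_num at h4

/-- **The honest directions are strictly on one side of every slot** whose constant palette contains
the colour. -/
theorem side_hd (h : Irr U T) (hA : Att T z i) {s : ℝ} (hs : s ∈ Lc T z) (hx : i ∈ T (pt z s)) :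
    (¬ OutN U z (pt z s) i ∧ ∀ y ∈ HD U z i, 0 < Real.cos ((y - s) * (Real.pi / 3))) ∨
      (¬ InnN U z (pt z s) i ∧ ∀ y ∈ HD U z i, Real.cos ((y - s) * (Real.pi / 3)) < 0) := by
  obtain ⟨x0, hx0, hd0⟩ := hd_att h hA
  have hne := dir_perp h hs hx hd0
  have hev : ∀ᶠ v in 𝓝 s, i ∈ T (pt z v) := by
    have h1 : ∀ᶠ v in 𝓝 s, T (pt z v) = T (pt z s) := hs
    filter_upwards [h1] with v hv
    rw [hv]; exact hx
  have hcont : Continuous fun v : ℝ => Real.cos ((x0 - v) * (Real.pi / 3)) := by fun_prop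
  rcases lt_or_gt_of_ne hne with h1 | h1
  · right
    have h2 : ∀ᶠ v in 𝓝 s, Real.cos ((x0 - v) * (Real.pi / 3)) < 0 :=
      hcont.continuousAt.eventually (Iio_mem_nhds h1)
    have h3 : ∀ᶠ v in 𝓝 s, ¬ InnN U z (pt z v) i := by
      filter_upwards [h2] with v hv hi
      exact absurd ((hx0 v).2 hi) (not_le.2 hv)
    refine ⟨h3.self_of_nhds, fun y hy => ?_⟩
    have h4 : ∀ᶠ v in 𝓝 s, 0 ≤ Real.cos ((y + 3 - v) * (Real.pi / 3)) := by
      filter_upwards [h3, hev] with v hv hv'
      have h5 : OutN U z (pt z v) i := by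
        rcases out_or_inn h.mx (h.sub _ hv') (z := z) with h6 | h6
        · exact h6
        · exact absurd h6 hv
      have e : (y + 3 - v) * (Real.pi / 3) = (y - v) * (Real.pi / 3) + Real.pi := by ring
      rw [e, Real.cos_add_pi]
      have := (hy v).1 h5
      linarith
    have h5 := cos_strict h4
    have e : (y + 3 - s) * (Real.pi / 3) = (y - s) * (Real.pi / 3) + Real.pi := by ring
    rw [e, Real.cos_add_pi] at h5
    linarith
  · left
    have h2 : ∀ᶠ v in 𝓝 s, 0 < Real.cos ((x0 - v) * (Real.pi / 3)) :=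
      hcont.continuousAt.eventually (Ioi_mem_nhds h1)
    have h3 : ∀ᶠ v in 𝓝 s, ¬ OutN U z (pt z v) i := by
      filter_upwards [h2] with v hv ho
      exact absurd ((hx0 v).1 ho) (not_le.2 hv)
    refine ⟨h3.self_of_nhds, fun y hy => ?_⟩
    refine cos_strict ?_
    filter_upwards [h3, hev] with v hv hv'
    have h5 : InnN U z (pt z v) i := by
      rcases out_or_inn h.mx (h.sub _ hv') (z := z) with h6 | h6
      · exact absurd h6 hv
      · exact h6
    exact (hy v).2 h5

/-- **The honest directions are windows with honest ends** if they cover the circle. -/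
theorem win_of_hd (h : Irr U T) (hA : ∀ i, Att T z i)
    (hc : ∀ i, ∃ s ∈ Lc T z, i ∈ T (pt z s)) (hcov : ∀ s : ℝ, ∃ i, s ∈ HD U z i) :
    ∃ L R : Fin 6 → ℝ, WinData T z L R ∧ (∀ i, L i ∈ HD U z i ∧ R i ∈ HD U z i) ∧
      ∀ i, ∀ s ∈ HD U z i, ∃ n : ℤ, L i + 6 * n ≤ s ∧ s ≤ R i + 6 * n := by
  have hp3 : 0 < Real.pi / 3 := by positivity
  have hne3 : Real.pi / 3 ≠ 0 := hp3.ne'
  set D : Fin 6 → Set ℝ := fun i => {v | v / (Real.pi / 3) ∈ HD U z i} with hDdef
  have hDc : ∀ i, IsClosed (D i) := fun i => hd_closed.preimage (by fun_prop)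
  have hDp : ∀ i (s : ℝ) (n : ℤ), s + 2 * Real.pi * n ∈ D i ↔ s ∈ D i := by
    intro i s n
    show (s + 2 * Real.pi * n) / (Real.pi / 3) ∈ HD U z i ↔ s / (Real.pi / 3) ∈ HD U z i
    have e : (s + 2 * Real.pi * n) / (Real.pi / 3) = s / (Real.pi / 3) + 6 * n := by
      field_simp
      ring
    rw [e, hd_int]
  have hmem : ∀ i (x : ℝ), x * (Real.pi / 3) ∈ D i ↔ x ∈ HD U z i := by
    intro i x
    show x * (Real.pi / 3) / (Real.pi / 3) ∈ HD U z i ↔ _
    rw [mul_div_cancel_right₀ _ hne3]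
  have hDcos : ∀ i (s : ℝ), (∀ y ∈ HD U z i, 0 < Real.cos ((y - s) * (Real.pi / 3))) →
      ∀ v ∈ D i, 0 < Real.cos (v - s * (Real.pi / 3)) := by
    intro i s hs v hv
    have h1 := hs _ hv
    have e : (v / (Real.pi / 3) - s) * (Real.pi / 3) = v - s * (Real.pi / 3) := by
      rw [sub_mul, div_mul_cancel₀ _ hne3]
    rwa [e] at h1
  have hDcos' : ∀ i (s : ℝ), (∀ y ∈ HD U z i, Real.cos ((y - s) * (Real.pi / 3)) < 0) →
      ∀ y ∈ HD U z i, 0 < Real.cos ((y - (s + 3)) * (Real.pi / 3)) := by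
    intro i s hs y hy
    have h1 := hs y hy
    have e : (y - (s + 3)) * (Real.pi / 3) = (y - s) * (Real.pi / 3) - Real.pi := by ring
    rw [e, Real.cos_sub_pi]
    linarith
  have hne : ∀ i, (D i).Nonempty := by
    intro i
    obtain ⟨x, hx, -⟩ := hd_att h (hA i)
    exact ⟨_, (hmem i x).2 hx⟩
  have hex : ∀ i, ∃ p : ℝ × ℝ, p.1 * (Real.pi / 3) ≤ p.2 * (Real.pi / 3) ∧
      p.2 * (Real.pi / 3) < p.1 * (Real.pi / 3) + Real.pi ∧
      p.1 * (Real.pi / 3) ∈ D i ∧ p.2 * (Real.pi / 3) ∈ D i ∧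
      ∀ s ∈ D i, ∃ n : ℤ, p.1 * (Real.pi / 3) + 2 * Real.pi * n ≤ s ∧
        s ≤ p.2 * (Real.pi / 3) + 2 * Real.pi * n := by
    intro i
    obtain ⟨s, hs, hi⟩ := hc i
    obtain ⟨θ, hθ⟩ : ∃ θ : ℝ, ∀ y ∈ HD U z i, 0 < Real.cos ((y - θ) * (Real.pi / 3)) := by
      rcases side_hd h (hA i) hs hi with h1 | h1
      · exact ⟨s, h1.2⟩
      · exact ⟨s + 3, hDcos' i s h1.2⟩
    obtain ⟨l, r, h1, h2, h3, h4, h5⟩ := hull_of448 (hDc i) (hDp i) (hne i) (hDcos i θ hθ)
    refine ⟨(l / (Real.pi / 3), r / (Real.pi / 3)), ?_⟩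
    simp only
    rw [div_mul_cancel₀ _ hne3, div_mul_cancel₀ _ hne3]
    exact ⟨h1, h2, h3, h4, h5⟩
  choose p hle hlt hl hr hm using hex
  have hside : ∀ i (s : ℝ), (∀ y ∈ HD U z i, 0 < Real.cos ((y - s) * (Real.pi / 3))) →
      ∃ n : ℤ, s - 3 / 2 < (p i).1 + 6 * n ∧ (p i).2 + 6 * n < s + 3 / 2 := by
    intro i s hs
    obtain ⟨n, h1, h2⟩ := side_of448 (hDp i) (hle i) (hlt i) (hl i) (hr i) (hDcos i s hs)
    refine ⟨n, ?_, ?_⟩
    · apply scale_lt259
      have e1 : (s - 3 / 2) * (Real.pi / 3) = s * (Real.pi / 3) - Real.pi / 2 := by ring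
      have e2 : ((p i).1 + 6 * n) * (Real.pi / 3) = (p i).1 * (Real.pi / 3) + 2 * Real.pi * n := by
        ring
      rw [e1, e2]; exact h1
    · apply scale_lt259
      have e1 : (s + 3 / 2) * (Real.pi / 3) = s * (Real.pi / 3) + Real.pi / 2 := by ring
      have e2 : ((p i).2 + 6 * n) * (Real.pi / 3) = (p i).2 * (Real.pi / 3) + 2 * Real.pi * n := by
        ring
      rw [e1, e2]; exact h2
  have hback : ∀ i (s : ℝ), (∀ y ∈ HD U z i, Real.cos ((y - s) * (Real.pi / 3)) < 0) →
      ∃ n : ℤ, s + 3 / 2 < (p i).1 + 6 * n ∧ (p i).2 + 6 * n < s + 9 / 2 := by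
    intro i s hs
    obtain ⟨n, h1, h2⟩ := hside i (s + 3) (hDcos' i s hs)
    exact ⟨n, by linarith, by linarith⟩
  have hwin : ∀ i, ∀ s ∈ HD U z i, ∃ n : ℤ, (p i).1 + 6 * n ≤ s ∧ s ≤ (p i).2 + 6 * n := by
    intro i s hs
    obtain ⟨n, h1, h2⟩ := hm i _ ((hmem i s).2 hs)
    refine ⟨n, ?_, ?_⟩
    · apply scale259
      have e2 : ((p i).1 + 6 * n) * (Real.pi / 3) = (p i).1 * (Real.pi / 3) + 2 * Real.pi * n := by
        ring
      rw [e2]; exact h1
    · apply scale259
      have e2 : ((p i).2 + 6 * n) * (Real.pi / 3) = (p i).2 * (Real.pi / 3) + 2 * Real.pi * n := by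
        ring
      rw [e2]; exact h2
  refine ⟨fun i => (p i).1, fun i => (p i).2, ⟨?_, ?_, ?_, ?_, ?_, ?_⟩, ?_, hwin⟩
  · exact fun i => scale259 (hle i)
  · intro i
    apply scale_lt259
    have e : ((p i).1 + 3) * (Real.pi / 3) = (p i).1 * (Real.pi / 3) + Real.pi := by ring
    rw [e]; exact hlt i
  · intro s
    obtain ⟨i, hi⟩ := hcov s
    exact ⟨i, hwin i s hi⟩
  · intro s hs x hx
    rcases side_hd h (hA x) hs hx with h1 | h1
    · exact Or.inl (hside x s h1.2)
    · exact Or.inr (hback x s h1.2)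
  · intro s hs
    obtain ⟨x, hx, hf⟩ := exists_side_of259 h (freq_in259 (dist_pt z s))
    refine ⟨x, hx, ?_⟩
    rcases side_hd h (hA x) hs hx with h1 | h1
    · exact hside x s h1.2
    · exact absurd (innN_of h hf) h1.1
  · intro s hs
    obtain ⟨x, hx, hf⟩ := exists_side_of259 h (freq_out259 (dist_pt z s))
    refine ⟨x, hx, ?_⟩
    rcases side_hd h (hA x) hs hx with h1 | h1
    · exact absurd (outN_of h hf) h1.1
    · exact hback x s h1.2
  · exact fun i => ⟨(hmem i _).1 (hl i), (hmem i _).1 (hr i)⟩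

end Vale.Agent.P032.H448
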