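import Vale.Agent.P032.H429.Fill

/-!
# P032: the partner rule at a direction which is not solid

`Mx.partner448`: let `d` be a direction at `z` such that arbitrarily near `z`, in the directions near
`d`, there are points outside `U c`.  Then there is a point `q` of the unit circle about `z` with
`c ∈ Pal U q` such that no solid ray of `U c` is strictly on the same side of the line through `z`
perpendicular to `q - z` as `d`.

`Mx.partner_end448`: if moreover `d` is a limit of solid directions of `U c`, then `q = z + I * d` or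
`q = z - I * d`: the end of a solid cone of `c` has a partner perpendicular to it.
-/

open Set Filter Topology Metric

noncomputable section

namespace Vale.Agent.P032.Six

variable {k : ℕ} {U : Fin k → Set ℂ} {T : ℂ → Set (Fin k)}

/-- a continuous function with values on the two sides of `1` -/
theorem cross_real448 {f : ℝ → ℝ} (hf : Continuous f) {L : ℝ} (hL : 0 < L)
    (h : (f 0 - 1) * (f L - 1) < 0) : ∃ x ∈ Ioo 0 L, f x = 1 := by
  rcases mul_neg_iff.1 h with ⟨h1, h2⟩ | ⟨h1, h2⟩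
  · obtain ⟨x, hx, hx'⟩ := intermediate_value_Ioo' hL.le hf.continuousOn
      (show (1 : ℝ) ∈ Ioo (f L) (f 0) from ⟨by linarith, by linarith⟩)
    exact ⟨x, hx, hx'⟩
  · obtain ⟨x, hx, hx'⟩ := intermediate_value_Ioo hL.le hf.continuousOn
      (show (1 : ℝ) ∈ Ioo (f 0) (f L) from ⟨by linarith, by linarith⟩)
    exact ⟨x, hx, hx'⟩

theorem dist_ray448 (q z m : ℂ) (hm : ‖m‖ = 1) (x : ℝ) :
    dist q (z + x * m) ^ 2 = x ^ 2 - 2 * x * ip m (q - z) + dist q z ^ 2 := by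
  have h1 := norm_sq_coord429 hm
  rw [dist_eq_norm, dist_eq_norm, Complex.sq_norm, Complex.sq_norm, Complex.normSq_apply,
    Complex.normSq_apply]
  unfold ip
  simp only [Complex.sub_re, Complex.sub_im, Complex.add_re, Complex.add_im,
    Complex.re_ofReal_mul, Complex.im_ofReal_mul]
  linear_combination x ^ 2 * h1

/-- the unit circle about `q` passes through `z + r e`; its crossing with the ray of `m` -/
theorem cross448 {z m e q : ℂ} (hm : ‖m‖ = 1) (he : ‖e‖ = 1) {r K : ℝ} (hr : 0 < r) (hK : 0 < K)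
    (hq : dist (z + r * e) q = 1)
    (h : (2 * ip e (q - z) - r) * (K ^ 2 * r - 2 * K * ip m (q - z) + 2 * ip e (q - z) - r) < 0) :
    ∃ x ∈ Ioo 0 (K * r), dist (z + x * m) q = 1 := by
  have h0 : dist q z ^ 2 = 1 + r * (2 * ip e (q - z) - r) := by
    have h1 := dist_ray448 q z e he r
    rw [dist_comm q (z + r * e), hq] at h1
    linarith
  obtain ⟨x, hx, hx'⟩ := cross_real448 (f := fun x : ℝ => dist q (z + x * m) ^ 2)
    (by fun_prop) (mul_pos hK hr) (by
      show (dist q (z + (0 : ℝ) * m) ^ 2 - 1) * (dist q (z + ((K * r : ℝ) : ℂ) * m) ^ 2 - 1) < 0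
      rw [dist_ray448 q z m hm, dist_ray448 q z m hm, h0]
      have e1 : (0 ^ 2 - 2 * 0 * ip m (q - z) + (1 + r * (2 * ip e (q - z) - r)) - 1) *
          ((K * r) ^ 2 - 2 * (K * r) * ip m (q - z) + (1 + r * (2 * ip e (q - z) - r)) - 1) =
          r ^ 2 * ((2 * ip e (q - z) - r) *
            (K ^ 2 * r - 2 * K * ip m (q - z) + 2 * ip e (q - z) - r)) := by ring
      rw [e1]
      exact mul_neg_of_pos_of_neg (by positivity) h)
  refine ⟨x, hx, ?_⟩
  rw [dist_comm]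
  have hx' : dist q (z + x * m) ^ 2 = 1 := hx'
  have h2 : 0 ≤ dist q (z + x * m) := dist_nonneg
  nlinarith

theorem norm_cis448 (s : ℝ) : ‖cis s‖ = 1 := by
  unfold cis
  rw [Complex.norm_exp_ofReal_mul_I]

/-- **The partner rule.** -/
theorem Mx.partner448 (h : Mx U) {c : Fin k}
    (hmax : ∀ x, (∀ y ∈ closure (U c), dist x y ≠ 1) → x ∈ U c) {z d : ℂ} (hd : ‖d‖ = 1)
    (hf : ∃ᶠ x in nap z d, x ∉ U c) :
    ∃ q, dist q z = 1 ∧ c ∈ Pal U q ∧ ∀ m, ‖m‖ = 1 → Ray (U c) z m →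
      ip m (q - z) * ip d (q - z) ≤ 0 := by
  classical
  let g : ℝ × ℝ → ℂ := fun p => z + p.2 * (d * cis p.1)
  have hf' : ∃ᶠ p in (𝓝 (0 : ℝ)) ×ˢ (𝓝[>] (0 : ℝ)), g p ∉ U c := by
    unfold nap at hf
    rwa [Filter.frequently_map] at hf
  have hpart : ∀ p : ℝ × ℝ, ∃ y, g p ∉ U c → y ∈ closure (U c) ∧ dist (g p) y = 1 := by
    intro p
    by_cases hp : g p ∈ U c
    · exact ⟨0, fun h' => absurd hp h'⟩
    · have h1 : ¬ ∀ y ∈ closure (U c), dist (g p) y ≠ 1 := fun hcon => hp (hmax _ hcon)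
      push Not at h1
      obtain ⟨y, hy, hy'⟩ := h1
      exact ⟨y, fun _ => ⟨hy, hy'⟩⟩
  choose q hq using hpart
  have hne : (((𝓝 (0 : ℝ)) ×ˢ (𝓝[>] (0 : ℝ))) ⊓ 𝓟 {p : ℝ × ℝ | g p ∉ U c}).NeBot :=
    Filter.frequently_mem_iff_neBot.1 hf'
  obtain ⟨F, hF⟩ := Ultrafilter.exists_le (((𝓝 (0 : ℝ)) ×ˢ (𝓝[>] (0 : ℝ))) ⊓
    𝓟 {p : ℝ × ℝ | g p ∉ U c})
  have hF1 : (F : Filter (ℝ × ℝ)) ≤ (𝓝 (0 : ℝ)) ×ˢ (𝓝[>] (0 : ℝ)) := hF.trans inf_le_left
  have hF2 : ∀ᶠ p in (F : Filter (ℝ × ℝ)), g p ∉ U c :=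
    (hF.trans inf_le_right) (mem_principal_self _)
  have hs : Tendsto (fun p : ℝ × ℝ => p.1) F (𝓝 0) := tendsto_fst.mono_left hF1
  have hr' : Tendsto (fun p : ℝ × ℝ => p.2) F (𝓝[>] 0) := tendsto_snd.mono_left hF1
  have hr : Tendsto (fun p : ℝ × ℝ => p.2) F (𝓝 0) := hr'.mono_right nhdsWithin_le_nhds
  have hr0 : ∀ᶠ p in (F : Filter (ℝ × ℝ)), 0 < p.2 := hr' self_mem_nhdsWithin
  have hcis : Tendsto (fun p : ℝ × ℝ => d * cis p.1) F (𝓝 d) := by
    have h1 : Tendsto (fun s : ℝ => d * cis s) (𝓝 0) (𝓝 (d * cis 0)) :=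
      ((continuous_const.mul continuous_cis).tendsto 0)
    have h2 : d * cis 0 = d := by simp [cis]
    rw [h2] at h1
    exact h1.comp hs
  have hg : Tendsto g F (𝓝 z) := by
    have h1 : Tendsto (fun p : ℝ × ℝ => z + (p.2 : ℂ) * (d * cis p.1)) F (𝓝 (z + (0 : ℝ) * d)) :=
      tendsto_const_nhds.add (((Complex.continuous_ofReal.tendsto 0).comp hr).mul hcis)
    have h2 : z + ((0 : ℝ) : ℂ) * d = z := by simp
    rw [h2] at h1
    exact h1
  have hqd : ∀ᶠ p in (F : Filter (ℝ × ℝ)), q p ∈ closure (U c) ∧ dist (g p) (q p) = 1 :=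
    hF2.mono fun p hp => hq p hp
  -- the limit of the partners
  have hball : ∀ᶠ p in (F : Filter (ℝ × ℝ)), q p ∈ closedBall z 2 := by
    have h1 : ∀ᶠ p in (F : Filter (ℝ × ℝ)), g p ∈ ball z 1 := hg (ball_mem_nhds z one_pos)
    filter_upwards [h1, hqd] with p hp hp'
    rw [mem_closedBall]
    rw [mem_ball] at hp
    calc dist (q p) z ≤ dist (q p) (g p) + dist (g p) z := dist_triangle _ _ _
      _ ≤ 2 := by rw [dist_comm (q p), hp'.2]; linarith
  obtain ⟨q0, -, hq0⟩ := (isCompact_closedBall z (2 : ℝ)).ultrafilter_le_nhds (F.map q)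
    (by rw [le_principal_iff]; exact hball)
  have hqt : Tendsto q F (𝓝 q0) := hq0
  have hdist : dist z q0 = 1 := by
    have h1 : Tendsto (fun p => dist (g p) (q p)) F (𝓝 (dist z q0)) := hg.dist hqt
    have h2 : Tendsto (fun p => dist (g p) (q p)) F (𝓝 1) :=
      tendsto_const_nhds.congr' (hqd.mono fun p hp => hp.2.symm)
    exact tendsto_nhds_unique h1 h2
  have hcl : q0 ∈ closure (U c) := by
    have h1 : q0 ∈ closure (closure (U c)) :=
      mem_closure_of_tendsto hqt (hqd.mono fun p hp => hp.1)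
    rwa [closure_closure] at h1
  refine ⟨q0, by rw [dist_comm]; exact hdist, hcl, fun m hm hray => ?_⟩
  by_contra hcon
  push Not at hcon
  set a := ip m (q0 - z) with ha
  set b := ip d (q0 - z) with hb
  have ha0 : a ≠ 0 := by rintro h0; rw [h0] at hcon; simp at hcon
  have hb0 : b ≠ 0 := by rintro h0; rw [h0] at hcon; simp at hcon
  set K := 2 * b / a with hK
  have hK0 : 0 < K := by
    have h1 : K = 2 * (a * b) / a ^ 2 := by rw [hK]; field_simp
    rw [h1]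
    positivity
  have hKa : K * a = 2 * b := by rw [hK]; field_simp
  have hip : Continuous fun w : ℂ × ℂ => ip w.1 w.2 := by
    unfold ip; fun_prop
  have hA : Tendsto (fun p : ℝ × ℝ => ip m (q p - z)) F (𝓝 a) :=
    (hip.tendsto (m, q0 - z)).comp (tendsto_const_nhds.prodMk_nhds (hqt.sub_const z))
  have hB : Tendsto (fun p : ℝ × ℝ => ip (d * cis p.1) (q p - z)) F (𝓝 b) :=
    (hip.tendsto (d, q0 - z)).comp (hcis.prodMk_nhds (hqt.sub_const z))
  have hlim : Tendsto (fun p : ℝ × ℝ => (2 * ip (d * cis p.1) (q p - z) - p.2) *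
      (K ^ 2 * p.2 - 2 * K * ip m (q p - z) + 2 * ip (d * cis p.1) (q p - z) - p.2)) F
      (𝓝 ((2 * b - 0) * (K ^ 2 * 0 - 2 * K * a + 2 * b - 0))) :=
    ((hB.const_mul 2).sub hr).mul
      ((((hr.const_mul (K ^ 2)).sub (hA.const_mul (2 * K))).add (hB.const_mul 2)).sub hr)
  have hneg : (2 * b - 0) * (K ^ 2 * 0 - 2 * K * a + 2 * b - 0) < 0 := by
    have h1 : (2 * b - 0) * (K ^ 2 * 0 - 2 * K * a + 2 * b - 0) = -(4 * b ^ 2) := by
      linear_combination (-4 * b) * hKa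
    rw [h1]
    have : 0 < b ^ 2 := by positivity
    linarith
  have hev : ∀ᶠ p in (F : Filter (ℝ × ℝ)), (2 * ip (d * cis p.1) (q p - z) - p.2) *
      (K ^ 2 * p.2 - 2 * K * ip m (q p - z) + 2 * ip (d * cis p.1) (q p - z) - p.2) < 0 :=
    hlim (Iio_mem_nhds hneg)
  obtain ⟨δ, hδ, hδ'⟩ := mem_nhdsGT_iff_exists_Ioo_subset.1 hray
  rw [mem_Ioi] at hδ
  have hsmall : ∀ᶠ p in (F : Filter (ℝ × ℝ)), K * p.2 < δ := by
    have h1 : Tendsto (fun p : ℝ × ℝ => K * p.2) F (𝓝 (K * 0)) := hr.const_mul K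
    rw [mul_zero] at h1
    exact h1 (Iio_mem_nhds hδ)
  obtain ⟨p, hp1, hp2, hp3, hp4⟩ := (hev.and (hsmall.and (hr0.and hqd))).exists
  have hp1 : (2 * ip (d * cis p.1) (q p - z) - p.2) *
      (K ^ 2 * p.2 - 2 * K * ip m (q p - z) + 2 * ip (d * cis p.1) (q p - z) - p.2) < 0 := hp1
  obtain ⟨x, hx, hx'⟩ := cross448 hm (by rw [norm_mul, hd, norm_cis448, mul_one]) hp3 hK0 hp4.2 hp1
  have hxU : z + (x : ℂ) * m ∈ U c := hδ' ⟨hx.1, hx.2.trans hp2⟩
  exact h.free c _ hxU _ hp4.1 hx'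

/-- a unit vector perpendicular to `d` -/
theorem perp448 {d e : ℂ} (hd : ‖d‖ = 1) (he : ‖e‖ = 1) (h : ip d e = 0) :
    e = Complex.I * d ∨ e = -(Complex.I * d) := by
  have h1 := norm_sq_coord429 hd
  have h2 := norm_sq_coord429 he
  unfold ip at h
  obtain ⟨t, ht⟩ : ∃ t : ℝ, t = d.re * e.im - d.im * e.re := ⟨_, rfl⟩
  have h3 : e.re = -(t * d.im) := by
    rw [ht]; linear_combination (-e.re) * h1 + d.re * h
  have h4 : e.im = t * d.re := by
    rw [ht]; linear_combination (-e.im) * h1 + d.im * h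
  have h5 : (t - 1) * (t + 1) = 0 := by
    have : t ^ 2 = 1 := by
      rw [ht]
      linear_combination (e.re ^ 2 + e.im ^ 2) * h1 + h2 - (d.re * e.re + d.im * e.im) * h
    linear_combination this
  rcases mul_eq_zero.1 h5 with h6 | h6
  · left
    have h7 : t = 1 := by linarith
    apply Complex.ext
    · rw [h3, h7]; simp
    · rw [h4, h7]; simp
  · right
    have h7 : t = -1 := by linarith
    apply Complex.ext
    · rw [h3, h7]; simp
    · rw [h4, h7]; simp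

/-- **The partner rule at the end of a solid cone.** -/
theorem Mx.partner_end448 (h : Mx U) {c : Fin k}
    (hmax : ∀ x, (∀ y ∈ closure (U c), dist x y ≠ 1) → x ∈ U c) {z d : ℂ} (hd : ‖d‖ = 1)
    (hf : ∃ᶠ x in nap z d, x ∉ U c)
    (hl : ∃ᶠ m in 𝓝 d, ‖m‖ = 1 ∧ Ray (U c) z m) :
    c ∈ Pal U (z + Complex.I * d) ∨ c ∈ Pal U (z - Complex.I * d) := by
  obtain ⟨q, hq, hc, hm⟩ := h.partner448 hmax hd hf
  have h1 : ip d (q - z) * ip d (q - z) ≤ 0 := by
    by_contra hcon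
    push Not at hcon
    have hip : Continuous fun m : ℂ => ip m (q - z) * ip d (q - z) := by
      unfold ip; fun_prop
    have h2 : ∀ᶠ m in 𝓝 d, 0 < ip m (q - z) * ip d (q - z) :=
      hip.continuousAt (Ioi_mem_nhds hcon)
    obtain ⟨m, ⟨hm1, hm2⟩, hm3⟩ := (hl.and_eventually h2).exists
    exact absurd (hm m hm1 hm2) (not_le.2 hm3)
  have h2 : ip d (q - z) = 0 := by nlinarith [mul_self_nonneg (ip d (q - z))]
  have h3 : ‖q - z‖ = 1 := by rw [← dist_eq_norm]; exact hq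
  rcases perp448 hd h3 h2 with h4 | h4
  · left
    have : z + Complex.I * d = q := by rw [← h4]; ring
    rw [this]; exact hc
  · right
    have : z - Complex.I * d = q := by
      rw [sub_eq_add_neg, ← h4]; ring
    rw [this]; exact hc

/-- the partner rule in the frame -/
theorem Irr.partner448 (h : Irr U T) {c : Fin k} {z d : ℂ} (hd : ‖d‖ = 1)
    (hf : ∃ᶠ x in nap z d, x ∉ U c) :
    ∃ q, dist q z = 1 ∧ c ∈ Pal U q ∧ ∀ m, ‖m‖ = 1 → Ray (U c) z m →
      ip m (q - z) * ip d (q - z) ≤ 0 := h.mx.partner448 (h.max c) hd hf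

theorem Irr.partner_end448 (h : Irr U T) {c : Fin k} {z d : ℂ} (hd : ‖d‖ = 1)
    (hf : ∃ᶠ x in nap z d, x ∉ U c) (hl : ∃ᶠ m in 𝓝 d, ‖m‖ = 1 ∧ Ray (U c) z m) :
    c ∈ Pal U (z + Complex.I * d) ∨ c ∈ Pal U (z - Complex.I * d) :=
  h.mx.partner_end448 (h.max c) hd hf hl

end Vale.Agent.P032.Six
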