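import Vale.Agent.P032.H448.Partner
import Vale.Agent.P032.H158.Rel

/-!
# P032: the partner rule for the ends of the solid directions, in units of 60 degrees

`frontier448`: if `x` is in the frontier of the solid directions `Dr U z i`, then
`i ∈ Pal U (pt z (x + 3 / 2))` or `i ∈ Pal U (pt z (x - 3 / 2))`: at the time when the end of a solid
cone of `i` is on a ray, one of the two slot points perpendicular to the ray has `i` in its `Pal`.

`sep448`: for any direction `x` in which there are points off `U i` near `z` there is a slot point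
`pt z y` with `i` in its `Pal` which separates `x` from all solid directions of `i`.
-/

open Set Filter Topology Metric

noncomputable section

namespace Vale.Agent.P032.H448

open Vale.Agent.P032.Six Vale.Agent.P032.Sweep Vale.Agent.P032.S5.H767 Vale.Agent.P032.S5.H122
  Vale.Agent.P032.H429 Vale.Agent.P032.H187 Vale.Agent.P032.H158

variable {U : Fin 6 → Set ℂ} {T : ℂ → Set (Fin 6)} {z : ℂ}

theorem cis_quarter448 (x : ℝ) :
    cis ((x + 3 / 2) * (Real.pi / 3)) = Complex.I * cis (x * (Real.pi / 3)) := by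
  have e : (x + 3 / 2) * (Real.pi / 3) = Real.pi / 2 + x * (Real.pi / 3) := by ring
  rw [e, cis_add429]
  congr 1
  unfold cis
  push_cast
  exact Complex.exp_pi_div_two_mul_I

theorem pt_add448 (z : ℂ) (x : ℝ) : pt z (x + 3 / 2) = z + Complex.I * cis (x * (Real.pi / 3)) := by
  unfold pt
  rw [cis_quarter448]

theorem pt_sub448 (z : ℂ) (x : ℝ) : pt z (x - 3 / 2) = z - Complex.I * cis (x * (Real.pi / 3)) := by
  have h1 := cis_quarter448 (x - 3 / 2)
  rw [sub_add_cancel] at h1
  unfold pt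
  rw [h1, ← mul_assoc, Complex.I_mul_I]
  ring

theorem nfreq448 {i : Fin 6} {x : ℝ} (hx : ∃ᶠ s in 𝓝 x, s ∉ Dr U z i) :
    ∃ᶠ w in nap z (cis (x * (Real.pi / 3))), w ∉ U i := by
  by_contra hcon
  rw [Filter.not_frequently] at hcon
  have h1 : ∀ᶠ w in nap z (cis (x * (Real.pi / 3))), w ∈ U i := hcon.mono fun w hw => not_not.1 hw
  have h2 := nap_semi h1
  have h3 : Tendsto (fun s : ℝ => (s - x) * (Real.pi / 3)) (𝓝 x) (𝓝 0) := by
    have h4 : Tendsto (fun s : ℝ => (s - x) * (Real.pi / 3)) (𝓝 x) (𝓝 ((x - x) * (Real.pi / 3))) :=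
      (by fun_prop : Continuous fun s : ℝ => (s - x) * (Real.pi / 3)).tendsto x
    rwa [sub_self, zero_mul] at h4
  have h5 := h3.eventually h2
  obtain ⟨s, hs, hs'⟩ := (hx.and_eventually h5).exists
  refine hs ?_
  have h6 := ray_of_nap hs'
  have e : cis (x * (Real.pi / 3)) * cis ((s - x) * (Real.pi / 3)) = cis (s * (Real.pi / 3)) := by
    rw [← cis_add429]; congr 1; ring
  rw [e] at h6
  exact h6

/-- **The end of a solid cone on a ray.** -/
theorem frontier448 (h : Irr U T) {i : Fin 6} {x : ℝ} (hx : x ∈ frontier (Dr U z i)) :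
    i ∈ Pal U (pt z (x + 3 / 2)) ∨ i ∈ Pal U (pt z (x - 3 / 2)) := by
  rw [frontier_eq_closure_inter_closure] at hx
  have h1 : ∃ᶠ s in 𝓝 x, s ∈ Dr U z i := mem_closure_iff_frequently.1 hx.1
  have h2 : ∃ᶠ s in 𝓝 x, s ∉ Dr U z i := mem_closure_iff_frequently.1 hx.2
  have h3 : Tendsto (fun s : ℝ => cis (s * (Real.pi / 3))) (𝓝 x) (𝓝 (cis (x * (Real.pi / 3)))) :=
    ((continuous_cis.comp (by fun_prop : Continuous fun s : ℝ => s * (Real.pi / 3))).tendsto x)
  have h4 : ∃ᶠ m in 𝓝 (cis (x * (Real.pi / 3))), ‖m‖ = 1 ∧ Ray (U i) z m :=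
    h3.frequently (h1.mono fun s hs => ⟨norm_cis _, hs⟩)
  rw [pt_add448, pt_sub448]
  exact h.partner_end448 (norm_cis _) (nfreq448 h2) h4

/-- **Separation.** -/
theorem sep448 (h : Irr U T) {i : Fin 6} {x : ℝ}
    (hx : ∃ᶠ w in nap z (cis (x * (Real.pi / 3))), w ∉ U i) :
    ∃ y : ℝ, i ∈ Pal U (pt z y) ∧ ∀ s ∈ Dr U z i,
      Real.cos ((s - y) * (Real.pi / 3)) * Real.cos ((x - y) * (Real.pi / 3)) ≤ 0 := by
  obtain ⟨q, hq, hc, hm⟩ := h.partner448 (norm_cis _) hx
  have hq1 : ‖q - z‖ = 1 := by rw [← dist_eq_norm]; exact hq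
  obtain ⟨t, ht⟩ : ∃ t : ℝ, q - z = cis t := by
    refine ⟨Complex.arg (q - z), ?_⟩
    have h1 := Complex.norm_mul_exp_arg_mul_I (q - z)
    rw [hq1, Complex.ofReal_one, one_mul] at h1
    unfold cis
    exact h1.symm
  have ht' : t = (t * 3 / Real.pi) * (Real.pi / 3) := by field_simp
  refine ⟨t * 3 / Real.pi, ?_, fun s hs => ?_⟩
  · have : pt z (t * 3 / Real.pi) = q := by
      unfold pt
      rw [← ht', ← ht]; ring
    rw [this]; exact hc
  · have h1 := hm _ (norm_cis _) hs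
    rw [ht, ip_cis429, ip_cis429, ht'] at h1
    have e1 : ∀ a : ℝ, a * (Real.pi / 3) - t * 3 / Real.pi * (Real.pi / 3) =
        (a - t * 3 / Real.pi) * (Real.pi / 3) := fun a => by ring
    rw [e1, e1] at h1
    exact h1

end Vale.Agent.P032.H448
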