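import Vale.Agent.P032.H169.SixHD
import Vale.Agent.P032.H928.CovS

/-!
# P032: points of order six and silent colours

`no6s` : a point of order six near which all other points have at most two colours has two silent
colours (in no constant palette of the unit circle), or a colour which occurs on the unit circle
only in two antipodal points.
`six_s`, `handSixS` : the statement in the plane.
-/

open Set Filter Topology Metric

noncomputable section

namespace Vale.Agent.P032.H448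

open Vale.Agent.P032.Six Vale.Agent.P032.Sweep Vale.Agent.P032.S5.H767 Vale.Agent.P032.S5.H122
  Vale.Agent.P032.H429 Vale.Agent.P032.H187 Vale.Agent.P032.H158 Vale.Agent.P032.H266
  Vale.Agent.P032.H259 Vale.Agent.P032.H169 Vale.Agent.P032.S5.H843 Vale.Agent.P032.S5.H926
  Vale.Agent.P032.H259W Vale.Agent.P032.H928

theorem pt_int448 (z : ℂ) (s : ℝ) (n : ℤ) : pt z (s + 6 * n) = pt z s := by
  have e := pt_sub158 z (s + 6 * n)
  have e1 : (s + 6 * n) * (Real.pi / 3) = s * (Real.pi / 3) + 2 * Real.pi * n := by ring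
  rw [e1, cis_int429, ← pt_sub158 z s] at e
  linear_combination e

theorem pt_anti448 (z : ℂ) (s : ℝ) : pt z (s + 3) - z = -(pt z s - z) := by
  have e1 : (s + 3) * (Real.pi / 3) = s * (Real.pi / 3) + Real.pi := by ring
  rw [pt_sub158, pt_sub158, e1, cis_add_pi326]

theorem ex_pt448 {z q : ℂ} (hq : dist q z = 1) : ∃ s : ℝ, q = pt z s := by
  obtain ⟨θ, hθ⟩ := exists_cis (u := q - z) (by rw [← dist_eq_norm]; exact hq)
  refine ⟨θ / (Real.pi / 3), ?_⟩
  have e := pt_sub158 z (θ / (Real.pi / 3))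
  rw [div_mul_cancel₀ _ (by positivity), ← hθ] at e
  linear_combination -e

/-- **points of order six with colours in at most two points of the circle** -/
theorem no6s (E : EndW) {U : Fin 6 → Set ℂ} {T : ℂ → Set (Fin 6)} {z : ℂ} (h : Irr U T)
    (hmin : Mh259 U T) (hz : ∀ i, i ∈ T z) (ht : ∀ᶠ w in 𝓝[≠] z, (T w).ncard ≤ 2) :
    (∃ c f : Fin 6, c ≠ f ∧ (∀ s ∈ Lc T z, c ∉ T (pt z s)) ∧ ∀ s ∈ Lc T z, f ∉ T (pt z s)) ∨
      ∃ i, ∃ x : ℝ, ∀ q, dist q z = 1 → i ∈ Pal U q → q = pt z x ∨ q = pt z (x + 3) := by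
  by_contra hcon
  rw [not_or] at hcon
  obtain ⟨hA, hB⟩ := hcon
  push Not at hB
  obtain ⟨L, R, w⟩ := tame_w3_928 h hmin hz ht (fun c f hcf => by
    by_contra h1
    push Not at h1
    exact hA ⟨c, f, hcf, fun s hs => h1 c (Or.inl rfl) s hs, fun s hs => h1 f (Or.inr rfl) s hs⟩)
  have hlt : ∀ i, R i < L i + 3 := by
    intro i
    by_contra h1
    push Not at h1
    have e : R i = L i + 3 := le_antisymm (w.lt3 i) h1
    obtain ⟨q, hq, hi, hne1, hne2⟩ := hB i (L i + 3 / 2)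
    obtain ⟨t, rfl⟩ := ex_pt448 hq
    have e2 : Real.cos ((R i - t) * (Real.pi / 3)) = -Real.cos ((L i - t) * (Real.pi / 3)) := by
      have e3 : (R i - t) * (Real.pi / 3) = (L i - t) * (Real.pi / 3) + Real.pi := by
        rw [e]; ring
      rw [e3, Real.cos_add_pi]
    have h0 : Real.cos ((L i - t) * (Real.pi / 3)) = 0 := by
      rcases out_or_inn h.mx hi (z := z) with ho | ho
      · have k1 := ((w.hon i).1 t).1 ho
        have k2 := ((w.hon i).2 t).1 ho
        rw [e2] at k2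
        linarith
      · have k1 := ((w.hon i).1 t).2 ho
        have k2 := ((w.hon i).2 t).2 ho
        rw [e2] at k2
        linarith
    rw [Real.cos_eq_zero_iff] at h0
    obtain ⟨k, hk⟩ := h0
    have hpi := Real.pi_pos
    have hk2 : L i - t = 3 * k + 3 / 2 := by
      have h2 : (L i - t - (3 * k + 3 / 2)) * (Real.pi / 3) = 0 := by
        rw [sub_mul, hk]; ring
      rcases mul_eq_zero.1 h2 with h3 | h3
      · linarith
      · exfalso
        have : 0 < Real.pi / 3 := by positivity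
        linarith
    rcases Int.even_or_odd k with ⟨m, hm⟩ | ⟨m, hm⟩
    · refine hne2 ?_
      have e4 : t = L i + 3 / 2 + 3 + 6 * ((-m - 1 : ℤ) : ℝ) := by
        rw [hm] at hk2
        push_cast at hk2 ⊢
        linarith
      rw [e4, pt_int448]
    · refine hne1 ?_
      have e4 : t = L i + 3 / 2 + 6 * ((-m - 1 : ℤ) : ℝ) := by
        rw [hm] at hk2
        push_cast at hk2 ⊢
        linarith
      rw [e4, pt_int448]
  exact E U T z L R h hmin hz ⟨w.le, hlt, w.cover, w.side, w.front, w.back⟩ w.hon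

/-- **points near which all six sets are needed** -/
theorem six_s (E : EndW) {U : Fin 6 → Set (EuclideanSpace ℝ (Fin 2))}
    (hU : ∀ i, Maximal (fun W : Set (EuclideanSpace ℝ (Fin 2)) =>
      IsOpen W ∧ ∀ x ∈ W, ∀ y ∈ W, dist x y ≠ 1) (U i))
    (hd : Dense (⋃ i, U i)) {x : EuclideanSpace ℝ (Fin 2)}
    (hx : ∀ s : Set (Fin 6), s.ncard ≤ 5 → x ∈ closure ((⋃ j, U j) \ ⋃ i ∈ s, U i)) :
    (∃ᶠ w in 𝓝[≠] x, Three U w) ∨
      (∃ S : Set (Fin 6), S.ncard = 2 ∧ ∀ i ∈ S, ∀ p, dist p x = 1 → ∀ r > 0,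
        ∃ y, dist y x = 1 ∧ dist y p < r ∧
          y ∉ closure ((⋃ j, U j) \ ⋃ j ∈ ({i} : Set (Fin 6))ᶜ, U j)) ∨
      ∃ i, ∃ p, dist p x = 1 ∧ ∀ y, dist y x = 1 → y ∈ closure (U i) → y = p ∨ dist y p = 2 := by
  by_contra hcon
  rw [not_or, not_or] at hcon
  obtain ⟨hA, hS, hC⟩ := hcon
  obtain ⟨φ, T, h, hmin⟩ := frame169 hU hd
  obtain ⟨z, rfl⟩ := φ.surjective x
  have hsuf : ∀ (w : ℂ) (s : Set (Fin 6)), T w ⊆ s →
      φ w ∉ closure ((⋃ j, U j) \ ⋃ i ∈ s, U i) := by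
    intro w s hs hcl
    refine Irr_suff h w ((cdf169 φ (T w) w).2 (closure_mono ?_ hcl))
    exact sdiff_subset_sdiff_right (biUnion_mono hs fun _ _ => Subset.rfl)
  have hz : ∀ i, i ∈ T z := by
    intro i
    by_contra hi
    have h1 : (T z).ncard ≤ 5 := by
      by_contra h2
      have h3 : (T z).ncard = 6 := by
        have h4 : (T z).ncard ≤ 6 := (Set.ncard_le_card _).trans (by simp)
        omega
      have h5 : T z = univ := Set.eq_univ_of_forall fun j => by
        by_contra hj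
        have h6 : T z ⊆ {j}ᶜ := fun k hk hkj => hj (by rw [mem_singleton_iff] at hkj; exact hkj ▸ hk)
        have h7 := Set.ncard_le_ncard h6 (Set.toFinite _)
        have h8 := Set.ncard_add_ncard_compl ({j} : Set (Fin 6))
        rw [Set.ncard_singleton, Nat.card_eq_fintype_card, Fintype.card_fin] at h8
        omega
      rw [h5] at hi
      exact hi (mem_univ i)
    exact hsuf z (T z) Subset.rfl (hx (T z) h1)
  have ht : ∀ᶠ w in 𝓝[≠] z, (T w).ncard ≤ 2 := by
    by_contra hcon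
    refine hA ?_
    have h1 : ∃ᶠ w in 𝓝[≠] z, ¬ (T w).ncard ≤ 2 := Filter.not_eventually.1 hcon
    have h2 : Tendsto φ (𝓝[≠] z) (𝓝[≠] (φ z)) := by
      refine tendsto_nhdsWithin_iff.2 ⟨φ.continuous.continuousAt.tendsto.mono_left inf_le_left, ?_⟩
      filter_upwards [self_mem_nhdsWithin] with w hw h3
      exact hw (φ.injective h3)
    exact h2.frequently (h1.mono fun w hw => three_of h hw)
  have hsil : ∀ c : Fin 6, (∀ s ∈ Lc T z, c ∉ T (pt z s)) → ∀ p, dist p (φ z) = 1 → ∀ r > 0,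
      ∃ y, dist y (φ z) = 1 ∧ dist y p < r ∧
        y ∉ closure ((⋃ j, U j) \ ⋃ j ∈ ({c} : Set (Fin 6))ᶜ, U j) := by
    intro c hc p hp r hr
    obtain ⟨q, rfl⟩ := φ.surjective p
    rw [φ.dist_map] at hp
    obtain ⟨s, rfl⟩ := ex_pt448 hp
    have hcont : Continuous fun t : ℝ => pt z t := Vale.Agent.P032.S5.H767.continuous_pt z
    have h1 : ∀ᶠ t in 𝓝 s, dist (pt z t) (pt z s) < r :=
      (hcont.continuousAt (x := s)).eventually (ball_mem_nhds _ hr)
    obtain ⟨t, ht1, ht2⟩ := (Lc_dense h z).inter_nhds_nonempty h1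
    refine ⟨φ (pt z t), by rw [φ.dist_map]; exact dist_pt z t, by rw [φ.dist_map]; exact ht2, ?_⟩
    refine hsuf _ _ fun j hj hji => hc t ht1 ?_
    rw [mem_singleton_iff] at hji
    exact hji ▸ hj
  rcases no6s E h hmin hz ht with ⟨c, f, hcf, hc, hf⟩ | ⟨i, x, hi⟩
  · refine hS ⟨{c, f}, Set.ncard_pair hcf, ?_⟩
    rintro g (rfl | hg)
    · exact hsil _ hc
    · rw [mem_singleton_iff] at hg
      subst hg
      exact hsil _ hf
  · refine hC ⟨i, φ (pt z x), by rw [φ.dist_map]; exact dist_pt z x, fun y hy hyc => ?_⟩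
    obtain ⟨q, rfl⟩ := φ.surjective y
    rw [φ.dist_map] at hy
    have hq : i ∈ Pal (fun i => φ ⁻¹' U i) q := by
      show q ∈ closure (φ ⁻¹' U i)
      have h2 : closure (φ ⁻¹' U i) = φ ⁻¹' closure (U i) :=
        (φ.toHomeomorph.preimage_closure (U i)).symm
      rw [h2]
      exact hyc
    rcases hi q hy hq with rfl | rfl
    · exact Or.inl rfl
    · right
      rw [φ.dist_map, dist_eq_norm]
      have e : pt z (x + 3) - pt z x = -(2 : ℂ) * (pt z x - z) := by
        linear_combination pt_anti448 z x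
      rw [e, norm_mul, norm_neg, ← dist_eq_norm, dist_pt]
      norm_num

/-- the hand-in, from the end -/
theorem handSixS (E : EndW) :
    (∀ V : Fin 6 → Set (EuclideanSpace ℝ (Fin 2)), (∀ i, IsOpen (V i)) →
      (∀ i, ∀ x ∈ V i, ∀ y ∈ V i, dist x y ≠ 1) → Dense (⋃ i, V i) →
      ∃ U : Fin 6 → Set (EuclideanSpace ℝ (Fin 2)), (∀ i, V i ⊆ U i) ∧ Dense (⋃ i, U i) ∧
        ∀ i, Maximal (fun W : Set (EuclideanSpace ℝ (Fin 2)) =>
          IsOpen W ∧ ∀ x ∈ W, ∀ y ∈ W, dist x y ≠ 1) (U i)) ∧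
    (∀ U : Fin 6 → Set (EuclideanSpace ℝ (Fin 2)), Dense (⋃ i, U i) →
      (∀ i, Maximal (fun W : Set (EuclideanSpace ℝ (Fin 2)) =>
        IsOpen W ∧ ∀ x ∈ W, ∀ y ∈ W, dist x y ≠ 1) (U i)) →
      ∀ x : EuclideanSpace ℝ (Fin 2),
        (∀ s : Set (Fin 6), s.ncard ≤ 5 → x ∈ closure ((⋃ j, U j) \ ⋃ i ∈ s, U i)) →
        (∀ r > 0, ∃ w, w ≠ x ∧ dist w x < r ∧
          ∃ X : Set (Fin 6), X.ncard = 3 ∧ ∀ i ∈ X, w ∈ closure (U i)) ∨
        (∃ S : Set (Fin 6), S.ncard = 2 ∧ ∀ i ∈ S, ∀ p, dist p x = 1 → ∀ r > 0,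
          ∃ y, dist y x = 1 ∧ dist y p < r ∧
            y ∉ closure ((⋃ j, U j) \ ⋃ j ∈ ({i} : Set (Fin 6))ᶜ, U j)) ∨
        ∃ i, ∃ p, dist p x = 1 ∧
          ∀ y, dist y x = 1 → y ∈ closure (U i) → y = p ∨ dist y p = 2) := by
  refine ⟨fun V hV hfree hd => ?_, fun U hd hU x hx => ?_⟩
  · choose U hVU hU using fun i => exists_maximal_ge (hV i) (hfree i)
    exact ⟨U, hVU, hd.mono (iUnion_mono hVU), hU⟩
  · rcases six_s E hU hd hx with h1 | h1
    · left
      intro r hr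
      have h2 : ∀ᶠ w in 𝓝[≠] x, dist w x < r ∧ w ≠ x := by
        filter_upwards [mem_nhdsWithin_of_mem_nhds (ball_mem_nhds x hr), self_mem_nhdsWithin]
          with w h3 h4
        exact ⟨h3, h4⟩
      obtain ⟨w, ⟨X, hX, hXc⟩, h3, h4⟩ := (h1.and_eventually h2).exists
      exact ⟨w, h4, h3, X, hX, hXc⟩
    · exact Or.inr h1

end Vale.Agent.P032.H448
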