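import Vale.Agent.P032.H259.Prism4

/-!
# P032: the windows of a prism centre are a `WinData`
-/

open Set Filter Topology Metric

noncomputable section

namespace Vale.Agent.P032.H448

open Vale.Agent.P032.Six Vale.Agent.P032.Sweep Vale.Agent.P032.S5.H767 Vale.Agent.P032.S5.H122
  Vale.Agent.P032.H429 Vale.Agent.P032.H259

variable {U : Fin 6 → Set ℂ} {T : ℂ → Set (Fin 6)} {z : ℂ} {L R : Fin 6 → ℝ}

/-- the windows of a prism centre are a `WinData` -/
theorem winData259 (W : TWin259 U T z L R) (h : Irr U T) : WinData T z L R where
  le := W.le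
  lt := W.lt
  cover := W.cover
  side _ hs _ hx := W.side hs hx
  front _ hs := W.front h hs
  back _ hs := W.back h hs

end Vale.Agent.P032.H448
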